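import Mathlib
import Vale.Agent.Lib.P328.Blsy.Events
import Vale.Agent.Lib.P328.Blsy.Main

/-!
# P328: the density of `nu`, the truncated integral and the log-concavity of the capacity
-/

namespace Vale.Agent.Lib.P328.BlsyS

open Finset MeasureTheory ProbabilityTheory Vale.Agent.Lib.P328.Blsy
open scoped ENNReal

/-- products of functions of the coordinates integrate to the product -/
theorem lintegral_pi_prod_any {E : Type} [MeasureSpace E] [SigmaFinite (volume : Measure E)] :
    ∀ (n : ℕ) (f : Fin n → E → ℝ≥0∞), (∀ i, Measurable (f i)) →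
    ∫⁻ x : Fin n → E, ∏ i, f i (x i) = ∏ i, ∫⁻ y, f i y := by
  intro n
  induction n with
  | zero =>
    intro f _
    simp [volume_pi]
  | succ n ih =>
    intro f hf
    have hc := (MeasureTheory.volume_preserving_piFinSuccAbove (fun _ : Fin (n + 1) => E) 0).symm
    have hg : Measurable fun x : Fin (n + 1) → E => ∏ i, f i (x i) :=
      Finset.measurable_prod _ fun i _ => (hf i).comp (measurable_pi_apply i)
    rw [← hc.lintegral_comp hg]
    have e1 : ∀ y : E × (Fin n → E),
        ∏ i, f i ((MeasurableEquiv.piFinSuccAbove (fun _ : Fin (n + 1) => E) 0).symm y i) =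
          f 0 y.1 * ∏ i : Fin n, f i.succ (y.2 i) := by
      rintro ⟨a, b⟩
      rw [Fin.prod_univ_succ]
      simp [MeasurableEquiv.piFinSuccAbove, Fin.insertNthEquiv]
    simp_rw [e1]
    have h3 := lintegral_prod_mul (μ := (volume : Measure E)) (ν := (volume : Measure (Fin n → E)))
      (f := f 0) (g := fun x : Fin n → E => ∏ i, f i.succ (x i))
      (hf 0).aemeasurable
      (Finset.measurable_prod _ fun i _ => (hf i.succ).comp (measurable_pi_apply i)).aemeasurable
    rw [Measure.volume_eq_prod, h3, ih _ fun i => hf i.succ, Fin.prod_univ_succ]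

/-- a product of measures with densities has the product density -/
theorem pi_withDensity_fin {E : Type} [MeasureSpace E] [SigmaFinite (volume : Measure E)]
    (n : ℕ) (f : Fin n → E → ℝ≥0∞) (hf : ∀ i, Measurable (f i))
    [∀ i, SigmaFinite ((volume : Measure E).withDensity (f i))] :
    Measure.pi (fun i => (volume : Measure E).withDensity (f i)) =
      (volume : Measure (Fin n → E)).withDensity (fun x => ∏ i, f i (x i)) := by
  refine Measure.pi_eq fun A hA => ?_
  rw [withDensity_apply _ (MeasurableSet.univ_pi hA)]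
  have hprod : ∀ x : Fin n → E, (Set.pi Set.univ A).indicator (fun x => ∏ i, f i (x i)) x =
      ∏ i, (A i).indicator (f i) (x i) := by
    intro x
    by_cases hx : x ∈ Set.pi Set.univ A
    · rw [Set.indicator_of_mem hx]
      apply Finset.prod_congr rfl
      intro i _
      rw [Set.indicator_of_mem (hx i (Set.mem_univ i))]
    · rw [Set.indicator_of_notMem hx]
      simp only [Set.mem_pi, Set.mem_univ, true_imp_iff, not_forall] at hx
      obtain ⟨i, hi⟩ := hx
      symm
      apply Finset.prod_eq_zero (Finset.mem_univ i)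
      exact Set.indicator_of_notMem hi _
  rw [← lintegral_indicator (MeasurableSet.univ_pi hA)]
  simp_rw [hprod]
  rw [lintegral_pi_prod_any n _ (fun i => (hf i).indicator (hA i))]
  apply Finset.prod_congr rfl
  intro i _
  rw [withDensity_apply _ (hA i), lintegral_indicator (hA i)]

variable {m n : ℕ}

/-- the density of one Gamma cell -/
theorem gammaPDF_eq (k : ℕ) (x : ℝ) :
    gammaPDF ((k : ℝ) + 1) 1 x =
      ENNReal.ofReal (if 0 ≤ x then Real.exp (-x) * (x ^ k / (k.factorial : ℝ)) else 0) := by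
  by_cases h : 0 ≤ x
  · rw [gammaPDF_of_nonneg h, if_pos h, Real.one_rpow, Real.Gamma_nat_eq_factorial,
      add_sub_cancel_right, Real.rpow_natCast, one_mul]
    congr 1
    field_simp
  · rw [gammaPDF_of_neg (not_le.1 h), if_neg h]
    simp

/-- the density of `muX` -/
noncomputable def densX (X : Fin m → Fin n → ℕ) (s : Fin m → Fin n → ℝ) : ℝ≥0∞ :=
  ∏ i, ∏ j, gammaPDF ((X i j : ℝ) + 1) 1 (s i j)

theorem measurable_densX (X : Fin m → Fin n → ℕ) : Measurable (densX X) := by
  unfold densX
  refine Finset.measurable_prod _ fun i _ => Finset.measurable_prod _ fun j _ => ?_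
  exact (measurable_gammaPDF' (X i j)).comp ((measurable_pi_apply j).comp (measurable_pi_apply i))

theorem muX_eq (X : Fin m → Fin n → ℕ) :
    muX X = (volume : Measure (Fin m → Fin n → ℝ)).withDensity (densX X) := by
  have hprob : ∀ (k : ℕ), SigmaFinite ((volume : Measure ℝ).withDensity
      (gammaPDF ((k : ℝ) + 1) 1)) := by
    intro k
    have h := gam_prob k
    unfold gam gammaMeasure at h
    infer_instance
  have hinner : ∀ i, (Measure.pi fun j => gammaMeasure ((X i j : ℝ) + 1) 1) =
      (volume : Measure (Fin n → ℝ)).withDensity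
        (fun u => ∏ j, gammaPDF ((X i j : ℝ) + 1) 1 (u j)) := by
    intro i
    unfold gammaMeasure
    exact pi_withDensity_fin n (fun j => gammaPDF ((X i j : ℝ) + 1) 1)
      (fun j => measurable_gammaPDF' (X i j))
  unfold muX
  simp_rw [hinner]
  have hs : ∀ i, SigmaFinite ((volume : Measure (Fin n → ℝ)).withDensity
      (fun u => ∏ j, gammaPDF ((X i j : ℝ) + 1) 1 (u j))) := by
    intro i
    rw [← hinner i]
    infer_instance
  exact pi_withDensity_fin m (fun i (u : Fin n → ℝ) => ∏ j, gammaPDF ((X i j : ℝ) + 1) 1 (u j))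
    (fun i => Finset.measurable_prod _ fun j _ =>
      (measurable_gammaPDF' (X i j)).comp (measurable_pi_apply j))

/-- the pointwise form of the density of `muX` -/
theorem densX_eq (X : Fin m → Fin n → ℕ) (s : Fin m → Fin n → ℝ) :
    densX X s = ENNReal.ofReal (if ∀ i j, 0 ≤ s i j then
      Real.exp (-∑ i, ∑ j, s i j) * wt s X else 0) := by
  unfold densX
  simp_rw [gammaPDF_eq]
  by_cases h : ∀ i j, 0 ≤ s i j
  · rw [if_pos h]
    have hif : ∀ i j, ENNReal.ofReal (if 0 ≤ s i j then
        Real.exp (-s i j) * (s i j ^ X i j / ((X i j).factorial : ℝ)) else 0) =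
        ENNReal.ofReal (Real.exp (-s i j) * (s i j ^ X i j / ((X i j).factorial : ℝ))) := by
      intro i j
      rw [if_pos (h i j)]
    simp_rw [hif]
    have hnn : ∀ i j, 0 ≤ Real.exp (-s i j) * (s i j ^ X i j / ((X i j).factorial : ℝ)) :=
      fun i j => mul_nonneg (Real.exp_pos _).le (div_nonneg (pow_nonneg (h i j) _) (by positivity))
    have h1 : ∀ i, ∏ j, ENNReal.ofReal (Real.exp (-s i j) *
        (s i j ^ X i j / ((X i j).factorial : ℝ))) =
        ENNReal.ofReal (∏ j, (Real.exp (-s i j) * (s i j ^ X i j / ((X i j).factorial : ℝ)))) :=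
      fun i => (ENNReal.ofReal_prod_of_nonneg (fun j _ => hnn i j)).symm
    simp_rw [h1]
    rw [← ENNReal.ofReal_prod_of_nonneg
      (fun i _ => Finset.prod_nonneg fun j _ => hnn i j)]
    congr 1
    unfold wt
    simp_rw [Finset.prod_mul_distrib]
    congr 1
    rw [← Finset.sum_neg_distrib, Real.exp_sum]
    apply Finset.prod_congr rfl
    intro i _
    rw [← Finset.sum_neg_distrib, Real.exp_sum]
  · rw [if_neg h, ENNReal.ofReal_zero]
    push Not at h
    obtain ⟨i, j, hij⟩ := h
    apply Finset.prod_eq_zero (Finset.mem_univ i)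
    apply Finset.prod_eq_zero (Finset.mem_univ j)
    rw [if_neg (not_le.2 hij)]
    simp

/-- the unnormalised density of `nu` -/
noncomputable def densF (r : Fin m → ℕ) (c : Fin n → ℕ) (s : Fin m → Fin n → ℝ) : ℝ≥0∞ :=
  ENNReal.ofReal (if ∀ i j, 0 ≤ s i j then Real.exp (-∑ i, ∑ j, s i j) * FF r c s else 0)

theorem wt_nonneg {s : Fin m → Fin n → ℝ} (h : ∀ i j, 0 ≤ s i j) (X : Fin m → Fin n → ℕ) :
    0 ≤ wt s X :=
  Finset.prod_nonneg fun i _ => Finset.prod_nonneg fun j _ =>
    div_nonneg (pow_nonneg (h i j) _) (by positivity)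

theorem FF_nonneg' (r : Fin m → ℕ) (c : Fin n → ℕ) {s : Fin m → Fin n → ℝ}
    (h : ∀ i j, 0 ≤ s i j) : 0 ≤ FF r c s :=
  Finset.sum_nonneg fun X _ => wt_nonneg h X

theorem densF_eq_sum (r : Fin m → ℕ) (c : Fin n → ℕ) (s : Fin m → Fin n → ℝ) :
    densF r c s = ∑ X ∈ tables r c, densX X s := by
  simp_rw [densX_eq]
  unfold densF
  by_cases h : ∀ i j, 0 ≤ s i j
  · simp only [if_pos h]
    rw [← ENNReal.ofReal_sum_of_nonneg
      (fun X _ => mul_nonneg (Real.exp_pos _).le (wt_nonneg h X))]
    congr 1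
    unfold FF
    rw [Finset.mul_sum]
  · simp [if_neg h]

theorem measurable_wt (X : Fin m → Fin n → ℕ) :
    Measurable fun s : Fin m → Fin n → ℝ => wt s X := by
  unfold wt
  refine Finset.measurable_prod _ fun i _ => Finset.measurable_prod _ fun j _ => ?_
  exact (((measurable_pi_apply j).comp (measurable_pi_apply i)).pow_const _).div_const _

theorem measurable_FF (r : Fin m → ℕ) (c : Fin n → ℕ) : Measurable (FF r c) := by
  unfold FF
  exact Finset.measurable_sum _ fun X _ => measurable_wt X

theorem measurable_densF (r : Fin m → ℕ) (c : Fin n → ℕ) : Measurable (densF r c) := by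
  have : densF r c = fun s => ∑ X ∈ tables r c, densX X s := funext (densF_eq_sum r c)
  rw [this]
  exact Finset.measurable_sum _ fun X _ => measurable_densX X

/-- **The density of `nu`.** -/
theorem nu_eq (r : Fin m → ℕ) (c : Fin n → ℕ) :
    nu r c = (((tables r c).card : ℝ≥0∞)⁻¹) •
      (volume : Measure (Fin m → Fin n → ℝ)).withDensity (densF r c) := by
  unfold nu
  congr 1
  simp_rw [muX_eq]
  ext A hA
  rw [Measure.finsetSum_apply, withDensity_apply _ hA]
  simp_rw [withDensity_apply _ hA, densF_eq_sum]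
  rw [lintegral_finsetSum' _ fun X _ => (measurable_densX X).aemeasurable]

/-- the total mass of the density is the number of tables -/
theorem lintegral_densF (r : Fin m → ℕ) (c : Fin n → ℕ) :
    ∫⁻ s, densF r c s = ((tables r c).card : ℝ≥0∞) := by
  simp_rw [densF_eq_sum]
  rw [lintegral_finsetSum _ fun X _ => measurable_densX X]
  have h1 : ∀ X : Fin m → Fin n → ℕ, ∫⁻ s, densX X s = 1 := by
    intro X
    have := muX_prob X
    have h2 := measure_univ (μ := muX X)
    rw [muX_eq, withDensity_apply _ MeasurableSet.univ, setLIntegral_univ] at h2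
    exact h2
  simp_rw [h1]
  simp

/-- the capacity is measurable -/
theorem cap_nonneg (r : Fin m → ℕ) (c : Fin n → ℕ) (s : Fin m → Fin n → ℝ) : 0 ≤ cap r c s := by
  unfold cap
  apply Real.iInf_nonneg
  rintro ⟨p, hp⟩
  have h1 := hp.1
  have h2 := hp.2
  apply div_nonneg (Real.exp_pos _).le
  exact mul_nonneg (Finset.prod_nonneg fun i _ => pow_nonneg (h1 i).le _)
    (Finset.prod_nonneg fun j _ => pow_nonneg (h2 j).le _)

theorem measurable_cap (r : Fin m → ℕ) (c : Fin n → ℕ) : Measurable (cap r c) := by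
  have hu : UpperSemicontinuous (cap r c) := by
    unfold cap
    apply upperSemicontinuous_ciInf
    · intro s
      refine ⟨0, ?_⟩
      rintro _ ⟨⟨p, hp⟩, rfl⟩
      have h1 := hp.1
      have h2 := hp.2
      apply div_nonneg (Real.exp_pos _).le
      exact mul_nonneg (Finset.prod_nonneg fun i _ => pow_nonneg (h1 i).le _)
        (Finset.prod_nonneg fun j _ => pow_nonneg (h2 j).le _)
    · rintro ⟨p, hp⟩
      apply Continuous.upperSemicontinuous
      apply Continuous.div_const
      apply Real.continuous_exp.comp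
      refine continuous_finsetSum _ fun i _ => continuous_finsetSum _ fun j _ => ?_
      exact continuous_const.mul ((continuous_apply j).comp (continuous_apply i))
  exact hu.measurable

/-- **The truncated integral.** `∫ exp (-∑ s) min (F, T R cap)` over the nonnegative orthant. -/
noncomputable def truncInt (r : Fin m → ℕ) (c : Fin n → ℕ) (T : ℝ) : ℝ≥0∞ :=
  ∫⁻ s : Fin m → Fin n → ℝ, ENNReal.ofReal (if ∀ i j, 0 ≤ s i j then
    Real.exp (-∑ i, ∑ j, s i j) * min (FF r c s) (T * Rlow r c * cap r c s) else 0)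

theorem truncInt_le (r : Fin m → ℕ) (c : Fin n → ℕ) (T : ℝ) :
    truncInt r c T ≤ ((tables r c).card : ℝ≥0∞) := by
  rw [← lintegral_densF]
  unfold truncInt densF
  apply lintegral_mono
  intro s
  apply ENNReal.ofReal_le_ofReal
  show (if ∀ i j, 0 ≤ s i j then
    Real.exp (-∑ i, ∑ j, s i j) * min (FF r c s) (T * Rlow r c * cap r c s) else 0) ≤ _
  split_ifs with h
  · exact mul_le_mul_of_nonneg_left (min_le_left _ _) (Real.exp_pos _).le
  · exact le_rfl

/-- the integral of the truncated density against a bound for the bad event -/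
theorem le_truncInt (r : Fin m → ℕ) (c : Fin n → ℕ) (T : ℝ) (ε : ℝ≥0∞)
    (hbad : nu r c {s | T * Rlow r c * cap r c s < FF r c s} ≤ ε) :
    (1 - ε) * ((tables r c).card : ℝ≥0∞) ≤ truncInt r c T := by
  classical
  rcases Nat.eq_zero_or_pos (tables r c).card with h0 | hpos
  · rw [h0]
    simp
  have hcard0 : ((tables r c).card : ℝ≥0∞) ≠ 0 := by
    exact_mod_cast hpos.ne'
  have hcardT : ((tables r c).card : ℝ≥0∞) ≠ ⊤ := ENNReal.natCast_ne_top _
  set B : Set (Fin m → Fin n → ℝ) := {s | T * Rlow r c * cap r c s < FF r c s} with hB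
  have hBm : MeasurableSet B :=
    measurableSet_lt (((measurable_cap r c).const_mul _)) (measurable_FF r c)
  -- the mass of the good set under the density
  have hG : ∫⁻ s in Bᶜ, densF r c s ≤ truncInt r c T := by
    rw [← lintegral_indicator hBm.compl]
    unfold truncInt
    apply lintegral_mono
    intro s
    by_cases hs : s ∈ Bᶜ
    · rw [Set.indicator_of_mem hs]
      unfold densF
      apply ENNReal.ofReal_le_ofReal
      have hs' : FF r c s ≤ T * Rlow r c * cap r c s := not_lt.1 hs
      split_ifs with h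
      · rw [min_eq_left hs']
      · exact le_rfl
    · rw [Set.indicator_of_notMem hs]
      exact zero_le
  have hnu : nu r c B = ((tables r c).card : ℝ≥0∞)⁻¹ * ∫⁻ s in B, densF r c s := by
    rw [nu_eq, Measure.smul_apply, smul_eq_mul, withDensity_apply _ hBm]
  have hsplit : (∫⁻ s in B, densF r c s) + ∫⁻ s in Bᶜ, densF r c s =
      ((tables r c).card : ℝ≥0∞) := by
    exact (lintegral_add_compl (μ := volume) (densF r c) hBm).trans (lintegral_densF r c)
  have hB2 : ∫⁻ s in B, densF r c s ≤ ε * ((tables r c).card : ℝ≥0∞) := by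
    have h3 : ((tables r c).card : ℝ≥0∞) * nu r c B = ∫⁻ s in B, densF r c s := by
      rw [hnu, ← mul_assoc, ENNReal.mul_inv_cancel hcard0 hcardT, one_mul]
    rw [← h3, mul_comm]
    gcongr
  calc (1 - ε) * ((tables r c).card : ℝ≥0∞)
      = ((tables r c).card : ℝ≥0∞) - ε * ((tables r c).card : ℝ≥0∞) := by
        rw [ENNReal.sub_mul (fun _ _ => hcardT), one_mul]
    _ ≤ ∫⁻ s in Bᶜ, densF r c s := by
        rw [tsub_le_iff_right]
        calc ((tables r c).card : ℝ≥0∞) = (∫⁻ s in B, densF r c s) + ∫⁻ s in Bᶜ, densF r c s :=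
              hsplit.symm
          _ ≤ ε * ((tables r c).card : ℝ≥0∞) + ∫⁻ s in Bᶜ, densF r c s := add_le_add hB2 le_rfl
          _ = _ := add_comm _ _
    _ ≤ truncInt r c T := hG

/-- **Log-concavity.** The capacity is log-concave on all matrices. -/
theorem cap_logconcave (r : Fin m → ℕ) (c : Fin n → ℕ) (s s' : Fin m → Fin n → ℝ) (a : ℝ)
    (ha : 0 ≤ a) (ha1 : a ≤ 1) :
    cap r c s ^ a * cap r c s' ^ (1 - a) ≤ cap r c (fun i j => a * s i j + (1 - a) * s' i j) := by
  unfold cap
  set val : (Fin m → Fin n → ℝ) → {p : (Fin m → ℝ) × (Fin n → ℝ) //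
      (∀ i, 0 < p.1 i) ∧ ∀ j, 0 < p.2 j} → ℝ := fun s p =>
    Real.exp (∑ i, ∑ j, p.1.1 i * p.1.2 j * s i j) /
      ((∏ i, p.1.1 i ^ r i) * ∏ j, p.1.2 j ^ c j) with hval
  have hD : ∀ p : {p : (Fin m → ℝ) × (Fin n → ℝ) // (∀ i, 0 < p.1 i) ∧ ∀ j, 0 < p.2 j},
      0 < (∏ i, p.1.1 i ^ r i) * ∏ j, p.1.2 j ^ c j := fun p =>
    mul_pos (Finset.prod_pos fun i _ => pow_pos (p.2.1 i) _)
      (Finset.prod_pos fun j _ => pow_pos (p.2.2 j) _)
  have hvalpos : ∀ s p, 0 < val s p := fun s p => div_pos (Real.exp_pos _) (hD p)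
  have hbdd : ∀ s, BddBelow (Set.range (val s)) := fun s =>
    ⟨0, by
      rintro _ ⟨p, rfl⟩
      exact (hvalpos s p).le⟩
  have hne : Nonempty {p : (Fin m → ℝ) × (Fin n → ℝ) // (∀ i, 0 < p.1 i) ∧ ∀ j, 0 < p.2 j} :=
    ⟨⟨(fun _ => 1, fun _ => 1), fun _ => one_pos, fun _ => one_pos⟩⟩
  have hinf0 : ∀ s, 0 ≤ ⨅ p, val s p := fun s =>
    Real.iInf_nonneg fun p => (hvalpos s p).le
  have ha2 : 0 ≤ 1 - a := by linarith
  apply le_ciInf
  intro p
  have h1 : (⨅ p, val s p) ^ a ≤ val s p ^ a :=
    Real.rpow_le_rpow (hinf0 s) (ciInf_le (hbdd s) p) ha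
  have h2 : (⨅ p, val s' p) ^ (1 - a) ≤ val s' p ^ (1 - a) :=
    Real.rpow_le_rpow (hinf0 s') (ciInf_le (hbdd s') p) ha2
  refine (mul_le_mul h1 h2 (Real.rpow_nonneg (hinf0 s') _)
    (Real.rpow_nonneg (hvalpos s p).le _)).trans (le_of_eq ?_)
  -- the value is log-linear
  simp only [hval]
  have hDp := hD p
  rw [Real.div_rpow (Real.exp_pos _).le hDp.le, Real.div_rpow (Real.exp_pos _).le hDp.le,
    ← Real.exp_mul, ← Real.exp_mul]
  rw [div_mul_div_comm, ← Real.exp_add, ← Real.rpow_add hDp]
  have e : a + (1 - a) = 1 := by ring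
  rw [e, Real.rpow_one]
  congr 2
  simp_rw [mul_add, Finset.sum_add_distrib]
  rw [Finset.sum_mul, Finset.sum_mul]
  congr 1
  · apply Finset.sum_congr rfl
    intro i _
    rw [Finset.sum_mul]
    apply Finset.sum_congr rfl
    intro j _
    ring
  · apply Finset.sum_congr rfl
    intro i _
    rw [Finset.sum_mul]
    apply Finset.sum_congr rfl
    intro j _
    ring

end Vale.Agent.Lib.P328.BlsyS
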