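import Mathlib
import Vale.Agent.Lib.P328.Defs
import Vale.Agent.Lib.P328.Blsy.Defs
import Vale.Agent.Lib.P328.Blsy.GammaFacts
import Vale.Agent.Lib.P328.Blsy.Events

/-!
# P328: the three good events for general margins, uniformly in the table
-/

namespace Vale.Agent.Lib.P328.BlsyS

open Finset MeasureTheory ProbabilityTheory Vale.Agent.Lib.P328.Blsy
open scoped ENNReal

variable {R C : Type} [Fintype R] [Fintype C] [DecidableEq R] [DecidableEq C]

/-- `1/(1-τ) ≤ exp (2τ)` on `[0,1/2]` -/
theorem inv_one_sub_le_exp (τ : ℝ) (h0 : 0 ≤ τ) (h1 : τ ≤ 1 / 2) :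
    (1 - τ)⁻¹ ≤ Real.exp (2 * τ) := by
  have hpos : 0 < 1 - τ := by linarith
  have h2 := exp_chord 1 (2 * τ) (by linarith) (by linarith)
  have h3 : Real.exp (-1) ≤ 1 / 2 := by
    rw [Real.exp_neg, ← one_div]
    apply one_div_le_one_div_of_le (by norm_num)
    have := Real.add_one_le_exp (1 : ℝ)
    linarith
  have h4 : Real.exp (-(2 * τ)) ≤ 1 - τ := by
    have h5 : -1 * (2 * τ) = -(2 * τ) := by ring
    rw [h5] at h2
    nlinarith
  rw [inv_le_comm₀ hpos (Real.exp_pos _), ← Real.exp_neg]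
  exact h4

/-- the mgf bound of the first event -/
theorem gam_mgf_le (k : ℕ) (τ : ℝ) (h0 : 0 ≤ τ) (h1 : τ ≤ 1 / 2) :
    ∫ t, Real.exp (τ * t) ∂(gam k) ≤ Real.exp (2 * τ * ((k : ℝ) + 1)) := by
  rw [(gam_mgf k τ (by linarith)).2]
  have hpos : 0 < 1 - τ := by linarith
  calc ((1 - τ)⁻¹) ^ (k + 1) ≤ (Real.exp (2 * τ)) ^ (k + 1) :=
        pow_le_pow_left₀ (by positivity) (inv_one_sub_le_exp τ h0 h1) _
    _ = Real.exp (2 * τ * ((k : ℝ) + 1)) := by
        rw [← Real.exp_nat_mul]
        congr 1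
        push_cast
        ring

theorem E1S_fail (r : R → ℕ) (c : C → ℕ) (N Rm : ℝ) (hN : 0 < N) (hRm : 0 < Rm)
    (hr : ∑ i, (r i : ℝ) = N) (hR : ∀ i, (r i : ℝ) ≤ Rm) (hRC : ∀ j, Rm * (c j : ℝ) ≤ N)
    (X : R → C → ℕ) (hX : X ∈ tables r c) :
    muX X {s | ¬ ∀ j, ∑ i, (r i : ℝ) * s i j ≤ 6 * N} ≤
      ENNReal.ofReal ((Fintype.card C : ℝ) * Real.exp (-(N / Rm))) := by
  have := muX_prob X
  have hXm := Vale.Agent.Lib.P328.mem_tables.1 hX
  set τ : R → ℝ := fun i => (r i : ℝ) / (2 * Rm) with hτ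
  have hτ0 : ∀ i, 0 ≤ τ i := fun i => by
    simp only [hτ]
    positivity
  have hτ1 : ∀ i, τ i ≤ 1 / 2 := fun i => by
    simp only [hτ]
    rw [div_le_iff₀ (by positivity)]
    have := hR i
    linarith
  have hcol : ∀ j, muX X {s | 6 * N < ∑ i, (r i : ℝ) * s i j} ≤
      ENNReal.ofReal (Real.exp (-(N / Rm))) := by
    intro j
    set f : R → ℝ → ℝ := fun i t => Real.exp (τ i * t) with hf
    have hmeas : ∀ i, Measurable (f i) := fun i => by
      simp only [hf]; fun_prop
    have hint : ∀ i, Integrable (f i) (gam (X i j)) := fun i =>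
      (gam_mgf (X i j) (τ i) (by linarith [hτ1 i])).1
    have hI : ∫ s, ∏ i, f i (s i j) ∂(muX X) ≤ Real.exp (2 * (N / Rm)) := by
      rw [integral_col_prod X j f hmeas]
      calc ∏ i, ∫ t, f i t ∂(gam (X i j))
          ≤ ∏ i, Real.exp (2 * τ i * ((X i j : ℝ) + 1)) := by
            apply Finset.prod_le_prod
            · intro i _
              exact integral_nonneg fun t => (Real.exp_pos _).le
            · intro i _
              exact gam_mgf_le (X i j) (τ i) (hτ0 i) (hτ1 i)
        _ = Real.exp (∑ i, 2 * τ i * ((X i j : ℝ) + 1)) := by rw [Real.exp_sum]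
        _ ≤ Real.exp (2 * (N / Rm)) := by
            apply Real.exp_le_exp.2
            have h1 : ∑ i, (r i : ℝ) * (X i j : ℝ) ≤ Rm * (c j : ℝ) := by
              have h2 : (c j : ℝ) = ∑ i, (X i j : ℝ) := by
                rw [← hXm.2 j]
                push_cast
                rfl
              rw [h2, Finset.mul_sum]
              apply Finset.sum_le_sum
              intro i _
              exact mul_le_mul_of_nonneg_right (hR i) (Nat.cast_nonneg _)
            have h3 : ∑ i, 2 * τ i * ((X i j : ℝ) + 1) =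
                (∑ i, (r i : ℝ) * (X i j : ℝ) + ∑ i, (r i : ℝ)) / Rm := by
              rw [← Finset.sum_add_distrib, Finset.sum_div]
              apply Finset.sum_congr rfl
              intro i _
              simp only [hτ]
              field_simp
            rw [h3, hr]
            have h4 := hRC j
            have h5 : (∑ i, (r i : ℝ) * (X i j : ℝ) + N) / Rm ≤ (N + N) / Rm := by
              apply div_le_div_of_nonneg_right _ hRm.le
              linarith
            calc _ ≤ (N + N) / Rm := h5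
              _ = _ := by ring
    have hsub : {s : R → C → ℝ | 6 * N < ∑ i, (r i : ℝ) * s i j} ⊆
        {s | Real.exp (3 * (N / Rm)) ≤ ∏ i, f i (s i j)} := by
      intro s hs
      simp only [Set.mem_ofPred_eq] at hs ⊢
      simp only [hf]
      rw [← Real.exp_sum]
      apply Real.exp_le_exp.2
      have e : ∑ i, τ i * s i j = (∑ i, (r i : ℝ) * s i j) / (2 * Rm) := by
        rw [Finset.sum_div]
        apply Finset.sum_congr rfl
        intro i _
        simp only [hτ]
        field_simp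
      rw [e, le_div_iff₀ (by positivity)]
      have : 3 * (N / Rm) * (2 * Rm) = 6 * N := by
        field_simp
        ring
      rw [this]
      exact hs.le
    refine (measure_mono hsub).trans ((markov_real (muX X) _ (fun s => ?_)
      (integrable_col_prod X j f hint) _ (Real.exp_pos _)).trans ?_)
    · exact Finset.prod_nonneg fun i _ => (Real.exp_pos _).le
    · apply ENNReal.ofReal_le_ofReal
      rw [div_le_iff₀ (Real.exp_pos _)]
      refine hI.trans ?_
      rw [← Real.exp_add]
      apply Real.exp_le_exp.2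
      linarith
  have hsub : {s : R → C → ℝ | ¬ ∀ j, ∑ i, (r i : ℝ) * s i j ≤ 6 * N} ⊆
      ⋃ j, {s | 6 * N < ∑ i, (r i : ℝ) * s i j} := by
    intro s hs
    simp only [Set.mem_ofPred_eq] at hs
    push Not at hs
    obtain ⟨j, hj⟩ := hs
    exact Set.mem_iUnion.2 ⟨j, hj⟩
  refine (measure_mono hsub).trans ((measure_iUnion_fintype_le _ _).trans ?_)
  calc ∑ j, muX X {s | 6 * N < ∑ i, (r i : ℝ) * s i j}
      ≤ ∑ _j : C, ENNReal.ofReal (Real.exp (-(N / Rm))) := Finset.sum_le_sum fun j _ => hcol j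
    _ = ENNReal.ofReal ((Fintype.card C : ℝ) * Real.exp (-(N / Rm))) := by
        rw [Finset.sum_const, Finset.card_univ, nsmul_eq_mul,
          ENNReal.ofReal_mul (by positivity), ENNReal.ofReal_natCast]

/-- the small ball function: `exp u` on `(-∞, lam)`, `1` elsewhere -/
theorem gam_ind_bound (k : ℕ) (lam u : ℝ) (hlam : 0 ≤ lam) (hu0 : 0 ≤ u) (hu1 : u ≤ 1) :
    Integrable (fun t : ℝ => if t < lam then Real.exp u else 1) (gam k) ∧
    ∫ t, (if t < lam then Real.exp u else 1) ∂(gam k) ≤ Real.exp (2 * lam * u) := by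
  have := gam_prob k
  have hpt : ∀ t : ℝ, (if t < lam then Real.exp u else 1) =
      1 + (Set.Iio lam).indicator (fun _ => Real.exp u - 1) t := by
    intro t
    by_cases h : t < lam
    · rw [if_pos h, Set.indicator_of_mem (Set.mem_Iio.2 h)]
      ring
    · rw [if_neg h, Set.indicator_of_notMem (fun h2 => h (Set.mem_Iio.1 h2))]
      ring
  have hind : Integrable ((Set.Iio lam).indicator (fun _ : ℝ => Real.exp u - 1)) (gam k) :=
    (integrable_const _).indicator measurableSet_Iio
  have hint : Integrable (fun t : ℝ => if t < lam then Real.exp u else 1) (gam k) := by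
    simp_rw [hpt]
    exact (integrable_const _).add hind
  refine ⟨hint, ?_⟩
  simp_rw [hpt]
  rw [integral_add (integrable_const _) hind, integral_const, integral_indicator_const _ measurableSet_Iio]
  simp only [probReal_univ, smul_eq_mul, one_mul]
  have hsm : (gam k).real (Set.Iio lam) ≤ lam := by
    have h1 := gam_small k lam hlam
    rw [Measure.real]
    exact ENNReal.toReal_le_of_le_ofReal hlam h1
  have hs0 : 0 ≤ (gam k).real (Set.Iio lam) := measureReal_nonneg
  -- `exp u - 1 ≤ 2 u`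
  have hexp : Real.exp u - 1 ≤ 2 * u := by
    have h1 := convexOn_exp.2 (Set.mem_univ (1 : ℝ)) (Set.mem_univ (0 : ℝ)) hu0 (sub_nonneg.2 hu1)
      (by ring)
    simp only [smul_eq_mul, mul_zero, add_zero, Real.exp_zero, mul_one] at h1
    have he : Real.exp 1 < 2.7182818286 := Real.exp_one_lt_d9
    nlinarith
  have hexp0 : 0 ≤ Real.exp u - 1 := by
    have := Real.add_one_le_exp u
    linarith
  have h2 : (gam k).real (Set.Iio lam) * (Real.exp u - 1) ≤ lam * (2 * u) :=
    mul_le_mul hsm hexp hexp0 hlam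
  have h3 := Real.add_one_le_exp (2 * lam * u)
  nlinarith

/-- the small ball sum over a column, for general weights -/
theorem small_sum_fail {ι : Type} [Fintype ι] [DecidableEq ι] (w : ι → ℝ) (hw : ∀ i, 0 ≤ w i)
    (N Rm : ℝ) (hN : 0 < N) (hRm : 0 < Rm)
    (hr : ∑ i, w i = N) (hR : ∀ i, w i ≤ Rm)
    {Ω : Type} [MeasurableSpace Ω] (μ : Measure Ω) [IsProbabilityMeasure μ]
    (Y : ι → Ω → ℝ) (k : ι → ℕ)
    (hint : ∀ f : ι → ℝ → ℝ, (∀ i, Integrable (f i) (gam (k i))) →
      Integrable (fun s => ∏ i, f i (Y i s)) μ)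
    (hval : ∀ f : ι → ℝ → ℝ, (∀ i, Measurable (f i)) →
      ∫ s, ∏ i, f i (Y i s) ∂μ = ∏ i, ∫ t, f i t ∂(gam (k i))) :
    μ {s | 1 / 16 * N < ∑ i, (if Y i s < 1 / 64 then w i else 0)} ≤
      ENNReal.ofReal (Real.exp (-(N / (32 * Rm)))) := by
  have hu0 : ∀ i, 0 ≤ w i / Rm := fun i => div_nonneg (hw i) hRm.le
  have hu1 : ∀ i, w i / Rm ≤ 1 := fun i => by
    rw [div_le_one hRm]
    exact hR i
  set f : ι → ℝ → ℝ := fun i t => if t < 1 / 64 then Real.exp (w i / Rm) else 1 with hf
  have hmeas : ∀ i, Measurable (f i) := fun i =>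
    Measurable.ite measurableSet_Iio measurable_const measurable_const
  have hI : ∫ s, ∏ i, f i (Y i s) ∂μ ≤ Real.exp ((N / Rm) / 32) := by
    rw [hval f hmeas]
    calc ∏ i, ∫ t, f i t ∂(gam (k i))
        ≤ ∏ i, Real.exp (2 * (1 / 64) * (w i / Rm)) := by
          apply Finset.prod_le_prod
          · intro i _
            apply integral_nonneg
            intro t
            simp only [hf]
            show 0 ≤ _
            split_ifs
            · exact (Real.exp_pos _).le
            · exact zero_le_one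
          · intro i _
            exact (gam_ind_bound (k i) (1 / 64) _ (by norm_num) (hu0 i) (hu1 i)).2
      _ = Real.exp ((N / Rm) / 32) := by
          rw [← Real.exp_sum]
          congr 1
          rw [← hr, Finset.sum_div, Finset.sum_div]
          apply Finset.sum_congr rfl
          intro i _
          ring
  have hprod : ∀ s, ∏ i, f i (Y i s) =
      Real.exp ((∑ i, (if Y i s < 1 / 64 then w i else 0)) / Rm) := by
    intro s
    rw [Finset.sum_div, Real.exp_sum]
    apply Finset.prod_congr rfl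
    intro i _
    simp only [hf]
    split_ifs
    · rfl
    · simp
  have hsub : {s | 1 / 16 * N < ∑ i, (if Y i s < 1 / 64 then w i else 0)} ⊆
      {s | Real.exp ((N / Rm) / 16) ≤ ∏ i, f i (Y i s)} := by
    intro s hs
    simp only [Set.mem_ofPred_eq] at hs ⊢
    rw [hprod]
    apply Real.exp_le_exp.2
    rw [le_div_iff₀ hRm]
    have : N / Rm / 16 * Rm = 1 / 16 * N := by
      field_simp
    rw [this]
    exact hs.le
  have hI2 : ∀ i, Integrable (f i) (gam (k i)) := fun i =>
    (gam_ind_bound (k i) (1 / 64) _ (by norm_num) (hu0 i) (hu1 i)).1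
  refine (measure_mono hsub).trans ((markov_real μ _ (fun s => ?_)
    (hint f hI2) _ (Real.exp_pos _)).trans ?_)
  · rw [hprod]
    exact (Real.exp_pos _).le
  · apply ENNReal.ofReal_le_ofReal
    rw [div_le_iff₀ (Real.exp_pos _)]
    refine hI.trans ?_
    rw [← Real.exp_add]
    apply Real.exp_le_exp.2
    have : N / Rm / 16 = 2 * (N / Rm / 32) := by ring
    have h2 : N / (32 * Rm) = N / Rm / 32 := by
      field_simp
    rw [this, h2]
    linarith

theorem E2S_fail (r : R → ℕ) (N Rm : ℝ) (hN : 0 < N) (hRm : 0 < Rm)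
    (hr : ∑ i, (r i : ℝ) = N) (hR : ∀ i, (r i : ℝ) ≤ Rm) (X : R → C → ℕ) :
    muX X {s | ¬ ∀ j, ∑ i, (if s i j < 1 / 64 then (r i : ℝ) else 0) ≤ 1 / 16 * N} ≤
      ENNReal.ofReal ((Fintype.card C : ℝ) * Real.exp (-(N / (32 * Rm)))) := by
  have := muX_prob X
  have hcol : ∀ j, muX X {s | 1 / 16 * N < ∑ i, (if s i j < 1 / 64 then (r i : ℝ) else 0)} ≤
      ENNReal.ofReal (Real.exp (-(N / (32 * Rm)))) := by
    intro j
    exact small_sum_fail (fun i => (r i : ℝ)) (fun i => Nat.cast_nonneg _) N Rm hN hRm hr hR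
      (muX X) (fun i s => s i j) (fun i => X i j)
      (fun f hf => integrable_col_prod X j f hf)
      (fun f hf => integral_col_prod X j f hf)
  have hsub : {s : R → C → ℝ | ¬ ∀ j, ∑ i, (if s i j < 1 / 64 then (r i : ℝ) else 0) ≤ 1 / 16 * N} ⊆
      ⋃ j, {s | 1 / 16 * N < ∑ i, (if s i j < 1 / 64 then (r i : ℝ) else 0)} := by
    intro s hs
    simp only [Set.mem_ofPred_eq] at hs
    push Not at hs
    obtain ⟨j, hj⟩ := hs
    exact Set.mem_iUnion.2 ⟨j, hj⟩
  refine (measure_mono hsub).trans ((measure_iUnion_fintype_le _ _).trans ?_)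
  calc _ ≤ ∑ _j : C, ENNReal.ofReal (Real.exp (-(N / (32 * Rm)))) :=
        Finset.sum_le_sum fun j _ => hcol j
    _ = ENNReal.ofReal ((Fintype.card C : ℝ) * Real.exp (-(N / (32 * Rm)))) := by
        rw [Finset.sum_const, Finset.card_univ, nsmul_eq_mul,
          ENNReal.ofReal_mul (by positivity), ENNReal.ofReal_natCast]

theorem E3S_fail (c : C → ℕ) (N Cm : ℝ) (hN : 0 < N) (hCm : 0 < Cm)
    (hc : ∑ j, (c j : ℝ) = N) (hC : ∀ j, (c j : ℝ) ≤ Cm) (X : R → C → ℕ) :
    muX X {s | ¬ ∀ i, ∑ j, (if s i j < 1 / 64 then (c j : ℝ) else 0) ≤ 1 / 16 * N} ≤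
      ENNReal.ofReal ((Fintype.card R : ℝ) * Real.exp (-(N / (32 * Cm)))) := by
  have := muX_prob X
  have hrow : ∀ i, muX X {s | 1 / 16 * N < ∑ j, (if s i j < 1 / 64 then (c j : ℝ) else 0)} ≤
      ENNReal.ofReal (Real.exp (-(N / (32 * Cm)))) := by
    intro i
    exact small_sum_fail (fun j => (c j : ℝ)) (fun j => Nat.cast_nonneg _) N Cm hN hCm hc hC
      (muX X) (fun j s => s i j) (fun j => X i j)
      (fun f hf => integrable_row_prod X i f hf)
      (fun f hf => integral_row_prod X i f hf)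
  have hsub : {s : R → C → ℝ | ¬ ∀ i, ∑ j, (if s i j < 1 / 64 then (c j : ℝ) else 0) ≤ 1 / 16 * N} ⊆
      ⋃ i, {s | 1 / 16 * N < ∑ j, (if s i j < 1 / 64 then (c j : ℝ) else 0)} := by
    intro s hs
    simp only [Set.mem_ofPred_eq] at hs
    push Not at hs
    obtain ⟨i, hi⟩ := hs
    exact Set.mem_iUnion.2 ⟨i, hi⟩
  refine (measure_mono hsub).trans ((measure_iUnion_fintype_le _ _).trans ?_)
  calc _ ≤ ∑ _i : R, ENNReal.ofReal (Real.exp (-(N / (32 * Cm)))) :=
        Finset.sum_le_sum fun i _ => hrow i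
    _ = ENNReal.ofReal ((Fintype.card R : ℝ) * Real.exp (-(N / (32 * Cm)))) := by
        rw [Finset.sum_const, Finset.card_univ, nsmul_eq_mul,
          ENNReal.ofReal_mul (by positivity), ENNReal.ofReal_natCast]

end Vale.Agent.Lib.P328.BlsyS
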