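import Mathlib
import Vale.Agent.Lib.P328.Defs
import Vale.Agent.Lib.P328.Blsy.Seq

/-!
# P328: sequential moments over the rows with row dependent functions, general margins
-/

namespace Vale.Agent.Lib.P328.BlsyS

open Finset Vale.Agent.Lib.P328.Blsy

variable {R C : Type} [Fintype R] [Fintype C] [DecidableEq R] [DecidableEq C]

/-- The induction on the unprocessed rows. -/
theorem seq_momentG_aux (r : R → ℕ) (c : C → ℕ) (φ : R → (C → ℕ) → ℝ) (hφ : ∀ i u, 0 ≤ φ i u)
    (H : R → ℝ) (hH : ∀ i, 0 ≤ H i) (J : Finset R)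
    (hfib : ∀ I₀ ⊆ J, ∀ i ∈ J \ I₀, ∀ Y ∈ tables r c,
      ∑ X ∈ fib r c I₀ Y, φ i (X i) ≤ H i * ((fib r c I₀ Y).card : ℝ))
    (k : ℕ) : ∀ I₀ ⊆ J, (J \ I₀).card = k → ∀ Y ∈ tables r c,
      ∑ X ∈ fib r c I₀ Y, ∏ i ∈ J \ I₀, φ i (X i) ≤
        (∏ i ∈ J \ I₀, H i) * ((fib r c I₀ Y).card : ℝ) := by
  classical
  induction k with
  | zero =>
    intro I₀ _ hk Y _
    rw [Finset.card_eq_zero.1 hk]
    simp
  | succ k IH =>
    intro I₀ hI₀ hk Y hY
    obtain ⟨i, hi⟩ : (J \ I₀).Nonempty := by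
      rw [← Finset.card_pos]; omega
    have hi' := Finset.mem_sdiff.1 hi
    have hI₁ : insert i I₀ ⊆ J := Finset.insert_subset hi'.1 hI₀
    have hsd : J \ I₀ = insert i (J \ insert i I₀) := by
      ext a
      simp only [Finset.mem_sdiff, Finset.mem_insert, not_or]
      constructor
      · rintro ⟨ha, hb⟩
        by_cases hai : a = i
        · exact Or.inl hai
        · exact Or.inr ⟨ha, hai, hb⟩
      · rintro (rfl | ⟨ha, _, hb⟩)
        · exact hi'
        · exact ⟨ha, hb⟩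
    have hnot : i ∉ J \ insert i I₀ := by simp
    have hk' : (J \ insert i I₀).card = k := by
      have := Finset.card_insert_of_notMem hnot
      rw [← hsd, hk] at this
      omega
    set A := fib r c I₀ Y with hA
    set Hk : ℝ := ∏ a ∈ J \ insert i I₀, H a with hHk
    have hHk0 : 0 ≤ Hk := Finset.prod_nonneg fun a _ => hH a
    have hprod : ∀ X ∈ A, ∏ a ∈ J \ I₀, φ a (X a) =
        φ i (X i) * ∏ a ∈ J \ insert i I₀, φ a (X a) := by
      intro X _
      rw [hsd, Finset.prod_insert hnot]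
    rw [Finset.sum_congr rfl hprod]
    have hclass : ∀ X₀ ∈ A, A.filter (fun X => X i = X₀ i) = fib r c (insert i I₀) X₀ := by
      intro X₀ hX₀
      ext X
      have hX₀' := mem_fib.1 hX₀
      rw [Finset.mem_filter]
      have hXA : X ∈ A ↔ X ∈ tables r c ∧ ∀ i ∈ I₀, X i = Y i := mem_fib
      rw [hXA, mem_fib]
      constructor
      · rintro ⟨⟨h1, h2⟩, h3⟩
        refine ⟨h1, ?_⟩
        intro a ha
        rcases Finset.mem_insert.1 ha with rfl | ha
        · exact h3
        · rw [h2 a ha, hX₀'.2 a ha]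
      · rintro ⟨h1, h2⟩
        refine ⟨⟨h1, fun a ha => ?_⟩, h2 i (Finset.mem_insert_self _ _)⟩
        rw [h2 a (Finset.mem_insert_of_mem ha), hX₀'.2 a ha]
    have hmain : ∀ X₀ ∈ A,
        ∑ X ∈ A.filter (fun X => X i = X₀ i), ∏ a ∈ J \ insert i I₀, φ a (X a) ≤
          Hk * ((A.filter (fun X => X i = X₀ i)).card : ℝ) := by
      intro X₀ hX₀
      rw [hclass X₀ hX₀]
      exact IH _ hI₁ hk' X₀ (mem_fib.1 hX₀).1
    have hH1 : ∑ X ∈ A, φ i (X i) ≤ H i * (A.card : ℝ) := hfib I₀ hI₀ i hi Y hY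
    have hpiece : ∀ u ∈ A.image (fun X => X i),
        ∑ X ∈ A.filter (fun X => X i = u), φ i (X i) * ∏ a ∈ J \ insert i I₀, φ a (X a) ≤
        Hk * ∑ X ∈ A.filter (fun X => X i = u), φ i (X i) := by
      intro u hu
      obtain ⟨X₀, hX₀, rfl⟩ := Finset.mem_image.1 hu
      have h1 : ∀ X ∈ A.filter (fun X => X i = X₀ i),
          φ i (X i) * ∏ a ∈ J \ insert i I₀, φ a (X a) =
            φ i (X₀ i) * ∏ a ∈ J \ insert i I₀, φ a (X a) := by
        intro X hX
        rw [(Finset.mem_filter.1 hX).2]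
      rw [Finset.sum_congr rfl h1, ← Finset.mul_sum]
      have h2 : ∀ X ∈ A.filter (fun X => X i = X₀ i), φ i (X i) = φ i (X₀ i) := by
        intro X hX
        rw [(Finset.mem_filter.1 hX).2]
      rw [Finset.sum_congr rfl h2, Finset.sum_const, nsmul_eq_mul]
      have h3 := mul_le_mul_of_nonneg_left (hmain X₀ hX₀) (hφ i (X₀ i))
      calc _ ≤ φ i (X₀ i) * (Hk * ((A.filter (fun X => X i = X₀ i)).card : ℝ)) := h3
        _ = _ := by ring
    calc ∑ X ∈ A, φ i (X i) * ∏ a ∈ J \ insert i I₀, φ a (X a)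
        = ∑ u ∈ A.image (fun X => X i), ∑ X ∈ A.filter (fun X => X i = u),
            φ i (X i) * ∏ a ∈ J \ insert i I₀, φ a (X a) :=
          (Finset.sum_fiberwise_of_maps_to (fun X hX => Finset.mem_image_of_mem _ hX) _).symm
      _ ≤ ∑ u ∈ A.image (fun X => X i), Hk * ∑ X ∈ A.filter (fun X => X i = u), φ i (X i) :=
          Finset.sum_le_sum hpiece
      _ = Hk * ∑ X ∈ A, φ i (X i) := by
          rw [← Finset.mul_sum]
          congr 1
          exact Finset.sum_fiberwise_of_maps_to (fun X hX => Finset.mem_image_of_mem _ hX) _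
      _ ≤ Hk * (H i * (A.card : ℝ)) := mul_le_mul_of_nonneg_left hH1 hHk0
      _ = (∏ a ∈ J \ I₀, H a) * (A.card : ℝ) := by
          rw [hsd, Finset.prod_insert hnot]
          ring

/-- sequential moment with row dependent functions -/
theorem seq_momentG (r : R → ℕ) (c : C → ℕ) (φ : R → (C → ℕ) → ℝ) (hφ : ∀ i u, 0 ≤ φ i u)
    (H : R → ℝ) (hH : ∀ i, 0 ≤ H i) (J : Finset R)
    (hfib : ∀ I₀ ⊆ J, ∀ i ∈ J \ I₀, ∀ Y ∈ tables r c,
      ∑ X ∈ fib r c I₀ Y, φ i (X i) ≤ H i * ((fib r c I₀ Y).card : ℝ)) :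
    ∑ X ∈ tables r c, ∏ i ∈ J, φ i (X i) ≤ (∏ i ∈ J, H i) * ((tables r c).card : ℝ) := by
  classical
  by_cases hne : (tables r c).Nonempty
  · obtain ⟨Y, hY⟩ := hne
    have := seq_momentG_aux r c φ hφ H hH J hfib J.card ∅ (Finset.empty_subset _) (by simp) Y hY
    simpa [fib_empty] using this
  · rw [Finset.not_nonempty_iff_eq_empty.1 hne]
    simp

/-- the fibre over the rows `I₀` is in bijection with the tables on the free rows -/
theorem fib_sum_eqG (r : R → ℕ) (c : C → ℕ) (I₀ : Finset R) (Y : R → C → ℕ)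
    (hY : Y ∈ tables r c) (f : (R → C → ℕ) → ℝ) (g : ({i // i ∉ I₀} → C → ℕ) → ℝ)
    (hfg : ∀ X : R → C → ℕ, f X = g (fun i => X i.1)) :
    ∑ X ∈ fib r c I₀ Y, f X =
      ∑ W ∈ tables (fun i : {i // i ∉ I₀} => r i.1) (cRest c I₀ Y), g W := by
  classical
  have hYm := mem_tables.1 hY
  have hYle : ∀ j, ∑ i ∈ I₀, Y i j ≤ c j := by
    intro j
    rw [← hYm.2 j]
    exact Finset.sum_le_sum_of_subset_of_nonneg (Finset.subset_univ _)
      (fun _ _ _ => Nat.zero_le _)
  have hsplit : ∀ (X : R → C → ℕ) (j : C),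
      ∑ i : {i // i ∉ I₀}, X i.1 j + ∑ i ∈ I₀, X i j = ∑ i, X i j := by
    intro X j
    rw [← Finset.sum_subtype (s := univ.filter (fun i => i ∉ I₀)) (p := fun i => i ∉ I₀)
        (by simp) (fun i => X i j)]
    rw [← Finset.sum_filter_add_sum_filter_not (univ : Finset R) (fun i => i ∉ I₀)
        (fun i => X i j)]
    congr 1
    apply Finset.sum_congr
    · ext i; simp
    · intro _ _; rfl
  refine Finset.sum_bij' (fun X _ i => X i.1)
    (fun W _ i => if h : i ∈ I₀ then Y i else W ⟨i, h⟩) ?_ ?_ ?_ ?_ ?_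
  · -- maps to
    intro X hX
    have hX' := mem_fib.1 hX
    have hXm := mem_tables.1 hX'.1
    rw [mem_tables]
    refine ⟨fun i => hXm.1 i.1, fun j => ?_⟩
    have h1 := hsplit X j
    have h2 : ∑ i ∈ I₀, X i j = ∑ i ∈ I₀, Y i j :=
      Finset.sum_congr rfl fun i hi => by rw [hX'.2 i hi]
    rw [hXm.2 j, h2] at h1
    unfold cRest
    omega
  · -- inverse maps to
    intro W hW
    have hWm := mem_tables.1 hW
    rw [mem_fib, mem_tables]
    refine ⟨⟨fun i => ?_, fun j => ?_⟩, fun i hi => ?_⟩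
    · by_cases h : i ∈ I₀
      · simp only [h, dif_pos]
        exact hYm.1 i
      · simp only [h, dif_neg, not_false_eq_true]
        exact hWm.1 ⟨i, h⟩
    · set X : R → C → ℕ := fun i => if h : i ∈ I₀ then Y i else W ⟨i, h⟩ with hXdef
      have h1 := hsplit X j
      have h2 : ∑ i ∈ I₀, X i j = ∑ i ∈ I₀, Y i j :=
        Finset.sum_congr rfl fun i hi => by simp [hXdef, hi]
      have h3 : ∑ i : {i // i ∉ I₀}, X i.1 j = ∑ i, W i j := by
        apply Finset.sum_congr rfl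
        intro i _
        simp [hXdef, i.2]
      have h4 := hWm.2 j
      unfold cRest at h4
      rw [← h1, h2, h3, h4]
      have := hYle j
      omega
    · simp [hi]
  · -- left inverse
    intro X hX
    have hX' := mem_fib.1 hX
    funext i
    by_cases h : i ∈ I₀
    · simp only [h, dif_pos]
      exact (hX'.2 i h).symm
    · simp [h]
  · -- right inverse
    intro W _
    funext i
    simp [i.2]
  · intro X _
    exact hfg X

end Vale.Agent.Lib.P328.BlsyS
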