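import Mathlib
import Vale.Agent.Lib.P328.Defs
import Vale.Agent.Lib.P328.Blsy.Schur

/-!
# P328: ratio tails of a cell for general margins (Schur transfer between two rows)
-/

namespace Vale.Agent.Lib.P328.BlsyS

open Finset Vale.Agent.Lib.P328.Blsy

variable {R C : Type} [Fintype R] [Fintype C] [DecidableEq R] [DecidableEq C]

/-- The tables whose entries in column `j` dominate `d`. -/
def QG (a : R → ℕ) (c : C → ℕ) (j : C) (d : R → ℕ) : Finset (R → C → ℕ) :=
  (tables a c).filter fun X => ∀ i, d i ≤ X i j

/-- Shift bijection. -/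
theorem QG_card_eq (a : R → ℕ) (c : C → ℕ) (j : C) (d : R → ℕ) (hd : ∀ i, d i ≤ a i)
    (hc : ∑ i, d i ≤ c j) :
    (QG a c j d).card =
      (tables (fun i => a i - d i) (Function.update c j (c j - ∑ i, d i))).card := by
  classical
  have hD : ∀ i, ∑ k, (if k = j then d i else 0) = d i := by
    intro i
    simp
  refine Finset.card_nbij' (fun X i k => X i k - (if k = j then d i else 0))
    (fun Y i k => Y i k + (if k = j then d i else 0)) ?_ ?_ ?_ ?_
  · intro X hX
    simp only [QG, Finset.coe_filter, Set.mem_ofPred_eq, mem_tables, Finset.mem_coe] at hX ⊢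
    obtain ⟨⟨hrow, hcol⟩, hdX⟩ := hX
    have hle : ∀ i k, (if k = j then d i else 0) ≤ X i k := by
      intro i k
      split_ifs with h
      · subst h; exact hdX i
      · exact Nat.zero_le _
    constructor
    · intro i
      have h1 : ∑ k, (X i k - (if k = j then d i else 0)) + ∑ k, (if k = j then d i else 0)
          = ∑ k, X i k := by
        rw [← Finset.sum_add_distrib]
        exact Finset.sum_congr rfl fun k _ => Nat.sub_add_cancel (hle i k)
      rw [hD, hrow i] at h1
      omega
    · intro k
      have h1 : ∑ i, (X i k - (if k = j then d i else 0)) + ∑ i, (if k = j then d i else 0)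
          = ∑ i, X i k := by
        rw [← Finset.sum_add_distrib]
        exact Finset.sum_congr rfl fun i _ => Nat.sub_add_cancel (hle i k)
      by_cases hk : k = j
      · subst hk
        simp only [if_true, Function.update_self] at h1 ⊢
        rw [hcol k] at h1
        omega
      · simp only [hk, if_false, Function.update_of_ne hk, Finset.sum_const_zero, add_zero,
          Nat.sub_zero] at h1 ⊢
        exact (hcol k)
  · intro Y hY
    simp only [QG, Finset.coe_filter, Set.mem_ofPred_eq, mem_tables, Finset.mem_coe] at hY ⊢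
    obtain ⟨hrow, hcol⟩ := hY
    refine ⟨⟨?_, ?_⟩, ?_⟩
    · intro i
      rw [Finset.sum_add_distrib, hrow i, hD]
      exact Nat.sub_add_cancel (hd i)
    · intro k
      rw [Finset.sum_add_distrib, hcol k]
      by_cases hk : k = j
      · subst hk
        simp only [if_true, Function.update_self]
        exact Nat.sub_add_cancel hc
      · simp [hk]
    · intro i
      simp
  · intro X hX
    simp only [QG, Finset.coe_filter, Set.mem_ofPred_eq, mem_tables] at hX
    funext i k
    have : (if k = j then d i else 0) ≤ X i k := by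
      split_ifs with h
      · subst h; exact hX.2 i
      · exact Nat.zero_le _
    exact Nat.sub_add_cancel this
  · intro Y _
    funext i k
    exact Nat.add_sub_cancel _ _

/-- An entry is at most the row sum. -/
theorem entry_le_rowG {a : R → ℕ} {c : C → ℕ} {X : R → C → ℕ} (hX : X ∈ tables a c)
    (i : R) (j : C) : X i j ≤ a i := by
  have h := (mem_tables.1 hX).1 i
  rw [← h]
  exact Finset.single_le_sum (f := fun z => X i z) (fun _ _ => Nat.zero_le _) (mem_univ j)

/-- An entry is at most the column sum. -/
theorem entry_le_colG {a : R → ℕ} {c : C → ℕ} {X : R → C → ℕ} (hX : X ∈ tables a c)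
    (i : R) (j : C) : X i j ≤ c j := by
  have h := (mem_tables.1 hX).2 j
  rw [← h]
  exact Finset.single_le_sum (f := fun k => X k j) (fun _ _ => Nat.zero_le _) (mem_univ i)

/-- `P(x_ij ≥ s+1) ≤ P(x_ij ≥ s, x_lj ≥ 1)` for a row `l` with `a_l ≥ a_i`. -/
theorem ratio_tail (a : R → ℕ) (c : C → ℕ) {i l : R} (hil : i ≠ l) (h : a i ≤ a l) (j : C)
    (s : ℕ) :
    ((tables a c).filter (fun X => s + 1 ≤ X i j)).card ≤
      ((tables a c).filter (fun X => s ≤ X i j ∧ 1 ≤ X l j)).card := by
  classical
  rcases ((tables a c).filter (fun X => s + 1 ≤ X i j)).eq_empty_or_nonempty with hE | ⟨X₀, hX₀⟩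
  · rw [hE]
    simp
  obtain ⟨hX₀t, hX₀s⟩ := Finset.mem_filter.1 hX₀
  have hai : s + 1 ≤ a i := hX₀s.trans (entry_le_rowG hX₀t i j)
  have hcj : s + 1 ≤ c j := hX₀s.trans (entry_le_colG hX₀t i j)
  -- the two lower bound vectors
  set d : R → ℕ := fun k => if k = i then s + 1 else 0 with hd
  set d' : R → ℕ := fun k => if k = i then s else if k = l then 1 else 0 with hd'
  have hli : l ≠ i := hil.symm
  have hsumd : ∑ k, d k = s + 1 := by
    simp [hd]
  have hsumd' : ∑ k, d' k = s + 1 := by
    have h1 : d' = fun k => (if k = i then s else 0) + (if k = l then 1 else 0) := by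
      funext k
      simp only [hd']
      by_cases hk : k = i
      · subst hk
        simp [hil]
      · simp [hk]
    rw [h1, Finset.sum_add_distrib]
    simp
  have hE1 : (tables a c).filter (fun X => s + 1 ≤ X i j) = QG a c j d := by
    ext X
    simp only [QG, Finset.mem_filter]
    constructor
    · rintro ⟨h1, h2⟩
      refine ⟨h1, fun k => ?_⟩
      simp only [hd]
      split_ifs with hk
      · subst hk; exact h2
      · exact Nat.zero_le _
    · rintro ⟨h1, h2⟩
      refine ⟨h1, ?_⟩
      have := h2 i
      simpa [hd] using this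
  have hE2 : (tables a c).filter (fun X => s ≤ X i j ∧ 1 ≤ X l j) = QG a c j d' := by
    ext X
    simp only [QG, Finset.mem_filter]
    constructor
    · rintro ⟨h1, h2, h3⟩
      refine ⟨h1, fun k => ?_⟩
      simp only [hd']
      split_ifs with hk hk2
      · subst hk; exact h2
      · subst hk2; exact h3
      · exact Nat.zero_le _
    · rintro ⟨h1, h2⟩
      refine ⟨h1, ?_, ?_⟩
      · have := h2 i
        simpa [hd'] using this
      · have := h2 l
        simpa [hd', hli] using this
  rw [hE1, hE2]
  have hdle : ∀ k, d k ≤ a k := by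
    intro k
    simp only [hd]
    split_ifs with hk
    · subst hk; exact hai
    · exact Nat.zero_le _
  have hd'le : ∀ k, d' k ≤ a k := by
    intro k
    simp only [hd']
    split_ifs with hk hk2
    · subst hk; omega
    · subst hk2; omega
    · exact Nat.zero_le _
  rw [QG_card_eq a c j d hdle (by rw [hsumd]; exact hcj),
    QG_card_eq a c j d' hd'le (by rw [hsumd']; exact hcj), hsumd, hsumd']
  apply tables_card_le_of_transfer _ _ _ hil
  · intro k hk1 hk2
    simp [hd, hd', hk1, hk2]
  · simp only [hd, hd', if_true, if_neg hli, if_true]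
    omega
  · simp only [hd, hd', if_true, if_neg hli, if_true]
    have e1 : ((a i - s : ℕ) : ℤ) = (a i : ℤ) - s := by
      rw [Nat.cast_sub (by omega)]
    have e2 : ((a l - 1 : ℕ) : ℤ) = (a l : ℤ) - 1 := by
      rw [Nat.cast_sub (by omega)]
      simp
    have e3 : ((a i - (s + 1) : ℕ) : ℤ) = (a i : ℤ) - s - 1 := by
      rw [Nat.cast_sub hai]
      push_cast
      ring
    have e4 : ((a l - 0 : ℕ) : ℤ) = (a l : ℤ) := by simp
    rw [e1, e2, e3, e4]
    have h5 : (a i : ℤ) ≤ a l := by exact_mod_cast h
    have h6 : (0 : ℤ) ≤ s := Int.natCast_nonneg s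
    rw [abs_le]
    have h7 : |(a i : ℤ) - s - 1 - a l| = (a l : ℤ) - a i + s + 1 := by
      rw [abs_of_nonpos (by linarith)]
      ring
    rw [h7]
    constructor <;> linarith

/-- one layer of the excess -/
theorem excess_layer (a : R → ℕ) (c : C → ℕ) (T : Finset R) {i : R} (hi : i ∉ T)
    (hT : ∀ l ∈ T, a i ≤ a l) (j : C) (s : ℕ) :
    T.card * ((tables a c).filter (fun X => s + 2 ≤ X i j)).card ≤
      c j * ((tables a c).filter (fun X => s + 1 ≤ X i j)).card := by
  classical
  have h1 : ∀ l ∈ T, ((tables a c).filter (fun X => s + 2 ≤ X i j)).card ≤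
      ((tables a c).filter (fun X => s + 1 ≤ X i j ∧ 1 ≤ X l j)).card := by
    intro l hl
    have hil : i ≠ l := by
      rintro rfl
      exact hi hl
    exact ratio_tail a c hil (hT l hl) j (s + 1)
  have h2 : ∀ l, ((tables a c).filter (fun X => s + 1 ≤ X i j ∧ 1 ≤ X l j)).card =
      ∑ X ∈ (tables a c).filter (fun X => s + 1 ≤ X i j), if 1 ≤ X l j then 1 else 0 := by
    intro l
    rw [← Finset.filter_filter, Finset.card_filter]
  calc T.card * ((tables a c).filter (fun X => s + 2 ≤ X i j)).card
      = ∑ _l ∈ T, ((tables a c).filter (fun X => s + 2 ≤ X i j)).card := by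
        rw [Finset.sum_const, smul_eq_mul]
    _ ≤ ∑ l ∈ T, ((tables a c).filter (fun X => s + 1 ≤ X i j ∧ 1 ≤ X l j)).card :=
        Finset.sum_le_sum h1
    _ = ∑ X ∈ (tables a c).filter (fun X => s + 1 ≤ X i j), ∑ l ∈ T, if 1 ≤ X l j then 1 else 0 := by
        simp_rw [h2]
        exact Finset.sum_comm
    _ ≤ ∑ _X ∈ (tables a c).filter (fun X => s + 1 ≤ X i j), c j := by
        apply Finset.sum_le_sum
        intro X hX
        have hXm := mem_tables.1 (Finset.mem_filter.1 hX).1
        rw [← hXm.2 j]
        calc ∑ l ∈ T, (if 1 ≤ X l j then 1 else 0) ≤ ∑ l ∈ T, X l j := by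
              apply Finset.sum_le_sum
              intro l _
              split_ifs with h
              · exact h
              · exact Nat.zero_le _
          _ ≤ ∑ l, X l j := Finset.sum_le_univ_sum_of_nonneg (fun _ => Nat.zero_le _)
    _ = c j * ((tables a c).filter (fun X => s + 1 ≤ X i j)).card := by
        rw [Finset.sum_const, smul_eq_mul, mul_comm]

/-- the layer cake formula for naturals -/
theorem layer_one (x B : ℕ) (h : x ≤ B) :
    ∑ s ∈ range B, (if s + 1 ≤ x then 1 else 0) = x := by
  have : (range B).filter (fun s => s + 1 ≤ x) = range x := by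
    ext s
    simp only [Finset.mem_filter, Finset.mem_range]
    omega
  rw [← Finset.card_filter, this, Finset.card_range]

theorem layer_two (x B : ℕ) (h : x ≤ B) :
    ∑ s ∈ range B, (if s + 2 ≤ x then 1 else 0) = x - 1 := by
  have : (range B).filter (fun s => s + 2 ≤ x) = range (x - 1) := by
    ext s
    simp only [Finset.mem_filter, Finset.mem_range]
    omega
  rw [← Finset.card_filter, this, Finset.card_range]

/-- the excess of a cell is at most `c_j / |T|` times its mean -/
theorem excess_le (a : R → ℕ) (c : C → ℕ) (T : Finset R) {i : R} (hi : i ∉ T)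
    (hT : ∀ l ∈ T, a i ≤ a l) (j : C) :
    T.card * ∑ X ∈ tables a c, (X i j - 1) ≤ c j * ∑ X ∈ tables a c, X i j := by
  classical
  set B := c j with hB
  have h1 : ∀ X ∈ tables a c, X i j - 1 = ∑ s ∈ range B, if s + 2 ≤ X i j then 1 else 0 :=
    fun X hX => (layer_two _ _ (entry_le_colG hX i j)).symm
  have h2 : ∀ X ∈ tables a c, X i j = ∑ s ∈ range B, if s + 1 ≤ X i j then 1 else 0 :=
    fun X hX => (layer_one _ _ (entry_le_colG hX i j)).symm
  rw [Finset.sum_congr rfl h1]
  conv_rhs => rw [Finset.sum_congr rfl h2]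
  rw [Finset.sum_comm]
  conv_rhs => rw [Finset.sum_comm]
  rw [Finset.mul_sum, Finset.mul_sum]
  apply Finset.sum_le_sum
  intro s _
  rw [← Finset.card_filter, ← Finset.card_filter]
  exact excess_layer a c T hi hT j s

end Vale.Agent.Lib.P328.BlsyS
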