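import Mathlib
import Vale.Agent.Lib.P328.Defs
import Vale.Agent.Lib.P328.Blsy.Gauge
import Vale.Agent.Lib.P328.BlsyS.SeqG
import Vale.Agent.Lib.P328.BlsyS.Ratio

/-!
# P328: most tables have many positive cells
-/

namespace Vale.Agent.Lib.P328.BlsyS

open Finset Vale.Agent.Lib.P328.Blsy

variable {R C : Type} [Fintype R] [Fintype C] [DecidableEq R] [DecidableEq C]

/-- the number of positive cells -/
def posCells (X : R → C → ℕ) : ℕ := (univ.filter fun p : R × C => 1 ≤ X p.1 p.2).card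

/-- the excess of a row -/
def rowExcess (u : C → ℕ) : ℕ := ∑ j, (u j - 1)

/-- the positive cells of a row -/
def rowPos (u : C → ℕ) : ℕ := ∑ j, if 1 ≤ u j then 1 else 0

theorem rowPos_add_rowExcess (u : C → ℕ) : rowPos u + rowExcess u = ∑ j, u j := by
  unfold rowPos rowExcess
  rw [← Finset.sum_add_distrib]
  apply Finset.sum_congr rfl
  intro j _
  split_ifs with h <;> omega

theorem posCells_eq (X : R → C → ℕ) : posCells X = ∑ i, rowPos (X i) := by
  unfold posCells rowPos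
  rw [Finset.card_filter, Fintype.sum_prod_type]

/-- the excess on the fibre over `I₀`, with the rows of `T` free -/
theorem excess_fib (r : R → ℕ) (c : C → ℕ) (T I₀ : Finset R) (hdis : Disjoint T I₀)
    {i : R} (hiT : i ∉ T) (hiI : i ∉ I₀) (hT : ∀ l ∈ T, r i ≤ r l)
    (Y : R → C → ℕ) (hY : Y ∈ tables r c) (j : C) :
    (T.card : ℝ) * ∑ X ∈ fib r c I₀ Y, ((X i j - 1 : ℕ) : ℝ) ≤
      (c j : ℝ) * ∑ X ∈ fib r c I₀ Y, (X i j : ℝ) := by
  classical
  have h1 := fib_sum_eqG r c I₀ Y hY (fun X => ((X i j - 1 : ℕ) : ℝ))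
    (fun W => ((W ⟨i, hiI⟩ j - 1 : ℕ) : ℝ)) (fun _ => rfl)
  have h2 := fib_sum_eqG r c I₀ Y hY (fun X => (X i j : ℝ))
    (fun W => (W ⟨i, hiI⟩ j : ℝ)) (fun _ => rfl)
  rw [h1, h2]
  set T' : Finset {i // i ∉ I₀} := T.subtype (fun i => i ∉ I₀) with hT'
  have hcard : T'.card = T.card := by
    rw [hT', Finset.card_subtype]
    congr 1
    apply Finset.filter_true_of_mem
    intro l hl hlI
    exact (Finset.disjoint_left.1 hdis hl) hlI
  have hi' : (⟨i, hiI⟩ : {i // i ∉ I₀}) ∉ T' := by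
    rw [hT', Finset.mem_subtype]
    exact hiT
  have h3 := excess_le (fun i : {i // i ∉ I₀} => r i.1) (cRest c I₀ Y) T' hi'
    (fun l hl => hT l.1 (Finset.mem_subtype.1 hl)) j
  rw [hcard] at h3
  have h4 : (T.card : ℝ) * ∑ W ∈ tables (fun i : {i // i ∉ I₀} => r i.1) (cRest c I₀ Y),
      ((W ⟨i, hiI⟩ j - 1 : ℕ) : ℝ) ≤ (cRest c I₀ Y j : ℝ) *
      ∑ W ∈ tables (fun i : {i // i ∉ I₀} => r i.1) (cRest c I₀ Y), (W ⟨i, hiI⟩ j : ℝ) := by
    exact_mod_cast h3
  refine h4.trans ?_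
  apply mul_le_mul_of_nonneg_right _ (Finset.sum_nonneg fun W _ => Nat.cast_nonneg _)
  have : cRest c I₀ Y j ≤ c j := Nat.sub_le _ _
  exact_mod_cast this

/-- `exp t ≤ 1 + 2 t` on `[0,1]` -/
theorem exp_le_one_add_two (t : ℝ) (h0 : 0 ≤ t) (h1 : t ≤ 1) : Real.exp t ≤ 1 + 2 * t := by
  have h := convexOn_exp.2 (Set.mem_univ (1 : ℝ)) (Set.mem_univ (0 : ℝ)) h0 (sub_nonneg.2 h1)
    (by ring)
  simp only [smul_eq_mul, mul_zero, add_zero, Real.exp_zero, mul_one] at h
  have he : Real.exp 1 < 2.7182818286 := Real.exp_one_lt_d9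
  nlinarith

/-- the exponential moment of the excess of a free row -/
theorem exp_excess_fib (r : R → ℕ) (c : C → ℕ) (T I₀ : Finset R) (hdis : Disjoint T I₀)
    {i : R} (hiT : i ∉ T) (hiI : i ∉ I₀) (hT : ∀ l ∈ T, r i ≤ r l)
    (Y : R → C → ℕ) (hY : Y ∈ tables r c) (Rm : ℝ) (hRm : 0 < Rm) (hR : (r i : ℝ) ≤ Rm)
    (hTc : ∀ j, 16 * (c j : ℝ) ≤ T.card) (hT0 : 0 < T.card) :
    ∑ X ∈ fib r c I₀ Y, Real.exp ((rowExcess (X i) : ℝ) / Rm) ≤
      Real.exp ((r i : ℝ) / (8 * Rm)) * ((fib r c I₀ Y).card : ℝ) := by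
  classical
  set A := fib r c I₀ Y with hA
  have hT0R : (0 : ℝ) < T.card := by exact_mod_cast hT0
  -- the mean excess in a cell
  have hcell : ∀ j, ∑ X ∈ A, ((X i j - 1 : ℕ) : ℝ) ≤ (1 / 16) * ∑ X ∈ A, (X i j : ℝ) := by
    intro j
    have h1 := excess_fib r c T I₀ hdis hiT hiI hT Y hY j
    have h2 : (c j : ℝ) ≤ (T.card : ℝ) * (1 / 16) := by
      have := hTc j
      linarith
    have h3 : 0 ≤ ∑ X ∈ A, (X i j : ℝ) := Finset.sum_nonneg fun X _ => Nat.cast_nonneg _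
    have h4 : (T.card : ℝ) * ∑ X ∈ A, ((X i j - 1 : ℕ) : ℝ) ≤
        (T.card : ℝ) * ((1 / 16) * ∑ X ∈ A, (X i j : ℝ)) := by
      refine h1.trans ?_
      rw [← mul_assoc]
      exact mul_le_mul_of_nonneg_right h2 h3
    exact le_of_mul_le_mul_left h4 hT0R
  -- the mean excess in the row
  have hrow : ∑ X ∈ A, (rowExcess (X i) : ℝ) ≤ (1 / 16) * ((r i : ℝ) * (A.card : ℝ)) := by
    calc ∑ X ∈ A, (rowExcess (X i) : ℝ) = ∑ j, ∑ X ∈ A, ((X i j - 1 : ℕ) : ℝ) := by
          rw [Finset.sum_comm]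
          apply Finset.sum_congr rfl
          intro X _
          unfold rowExcess
          push_cast
          rfl
      _ ≤ ∑ j, (1 / 16) * ∑ X ∈ A, (X i j : ℝ) := Finset.sum_le_sum fun j _ => hcell j
      _ = (1 / 16) * ∑ X ∈ A, ∑ j, (X i j : ℝ) := by
          rw [← Finset.mul_sum, Finset.sum_comm]
      _ = (1 / 16) * ((r i : ℝ) * (A.card : ℝ)) := by
          congr 1
          have : ∀ X ∈ A, ∑ j, (X i j : ℝ) = (r i : ℝ) := by
            intro X hX
            have hX' := (mem_tables.1 (mem_fib.1 hX).1).1 i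
            rw [← hX']
            push_cast
            rfl
          rw [Finset.sum_congr rfl this, Finset.sum_const, nsmul_eq_mul]
          ring
  -- pointwise
  have hpt : ∀ X ∈ A, Real.exp ((rowExcess (X i) : ℝ) / Rm) ≤
      1 + 2 * ((rowExcess (X i) : ℝ) / Rm) := by
    intro X hX
    apply exp_le_one_add_two _ (by positivity)
    rw [div_le_one hRm]
    refine le_trans ?_ hR
    have h1 := rowPos_add_rowExcess (X i)
    have hX' := (mem_tables.1 (mem_fib.1 hX).1).1 i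
    have h2 : rowExcess (X i) ≤ r i := by omega
    exact_mod_cast h2
  calc ∑ X ∈ A, Real.exp ((rowExcess (X i) : ℝ) / Rm)
      ≤ ∑ X ∈ A, (1 + 2 * ((rowExcess (X i) : ℝ) / Rm)) := Finset.sum_le_sum hpt
    _ = (A.card : ℝ) + 2 / Rm * ∑ X ∈ A, (rowExcess (X i) : ℝ) := by
        rw [Finset.sum_add_distrib, Finset.sum_const, nsmul_eq_mul, mul_one, Finset.mul_sum]
        congr 1
        apply Finset.sum_congr rfl
        intro X _
        ring
    _ ≤ (A.card : ℝ) + 2 / Rm * ((1 / 16) * ((r i : ℝ) * (A.card : ℝ))) := by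
        have : 0 ≤ 2 / Rm := by positivity
        linarith [mul_le_mul_of_nonneg_left hrow this]
    _ = (1 + (r i : ℝ) / (8 * Rm)) * (A.card : ℝ) := by
        field_simp
        ring
    _ ≤ Real.exp ((r i : ℝ) / (8 * Rm)) * (A.card : ℝ) := by
        apply mul_le_mul_of_nonneg_right _ (Nat.cast_nonneg _)
        have := Real.add_one_le_exp ((r i : ℝ) / (8 * Rm))
        linarith

/-- most tables have many positive cells -/
theorem many_positive (r : R → ℕ) (c : C → ℕ) (hsum : ∑ i, r i = ∑ j, c j)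
    (N Rm Cm : ℝ) (hN : 0 < N) (hRm : 0 < Rm) (hCm : 0 ≤ Cm)
    (hNr : ∑ i, (r i : ℝ) = N)
    (hR : ∀ i, (r i : ℝ) ≤ Rm) (hC : ∀ j, (c j : ℝ) ≤ Cm)
    (hRC : 256 * (Rm * Cm) ≤ N) (hRN : 16 * Rm ≤ N) :
    (((tables r c).filter (fun X => (posCells X : ℝ) < 5 / 8 * N)).card : ℝ) *
        Real.exp (N / (16 * Rm)) ≤ ((tables r c).card : ℝ) := by
  classical
  -- the size of the top set
  set t0 : ℕ := ⌈16 * Cm⌉₊ with ht0
  have ht0a : 16 * Cm ≤ t0 := Nat.le_ceil _
  have ht0b : (t0 : ℝ) < 16 * Cm + 1 := Nat.ceil_lt_add_one (by positivity)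
  have hsumR : ∑ j, (c j : ℝ) = N := by
    rw [← hNr]
    exact_mod_cast hsum.symm
  have hCne : Nonempty C := by
    by_contra h
    rw [not_nonempty_iff] at h
    simp at hsumR
    linarith
  have hCm1 : 0 < Cm := by
    by_contra hcon
    have hC0 : Cm = 0 := le_antisymm (not_lt.1 hcon) hCm
    have : ∑ j, (c j : ℝ) ≤ 0 := by
      apply Finset.sum_nonpos
      intro j _
      rw [← hC0]
      exact hC j
    linarith
  have ht0pos : 0 < t0 := by
    rw [ht0, Nat.ceil_pos]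
    positivity
  have hmassle : (t0 : ℝ) * Rm ≤ N / 8 := by
    have : (t0 : ℝ) * Rm ≤ (16 * Cm + 1) * Rm := mul_le_mul_of_nonneg_right ht0b.le hRm.le
    nlinarith
  have ht0card : t0 ≤ Fintype.card R := by
    by_contra hcon
    push Not at hcon
    have h1 : N ≤ (Fintype.card R : ℝ) * Rm := by
      rw [← hNr]
      calc ∑ i, (r i : ℝ) ≤ ∑ _i : R, Rm := Finset.sum_le_sum fun i _ => hR i
        _ = _ := by rw [Finset.sum_const, Finset.card_univ, nsmul_eq_mul]
    have h2 : (Fintype.card R : ℝ) ≤ t0 := by exact_mod_cast hcon.le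
    have h3 : (Fintype.card R : ℝ) * Rm ≤ (t0 : ℝ) * Rm := mul_le_mul_of_nonneg_right h2 hRm.le
    linarith
  obtain ⟨T, hTcard, hTtop⟩ := exists_top (fun i => (r i : ℝ)) t0 ht0card
  have hTtop' : ∀ i, i ∉ T → ∀ l ∈ T, r i ≤ r l := by
    intro i hi l hl
    have := hTtop l hl i hi
    exact_mod_cast this
  have hTmass : ∑ i ∈ T, (r i : ℝ) ≤ N / 8 := by
    calc ∑ i ∈ T, (r i : ℝ) ≤ ∑ _i ∈ T, Rm := Finset.sum_le_sum fun i _ => hR i
      _ = (t0 : ℝ) * Rm := by rw [Finset.sum_const, hTcard, nsmul_eq_mul]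
      _ ≤ N / 8 := hmassle
  set J := Tᶜ with hJ
  have hJmass : 7 / 8 * N ≤ ∑ i ∈ J, (r i : ℝ) := by
    have : ∑ i ∈ T, (r i : ℝ) + ∑ i ∈ J, (r i : ℝ) = N := by
      rw [hJ, Finset.sum_add_sum_compl, hNr]
    linarith
  have hJmassU : ∑ i ∈ J, (r i : ℝ) ≤ N := by
    rw [← hNr]
    exact Finset.sum_le_univ_sum_of_nonneg fun i => Nat.cast_nonneg _
  -- the sequential moment
  set φ : R → (C → ℕ) → ℝ := fun _ u => Real.exp ((rowExcess u : ℝ) / Rm) with hφ
  set H : R → ℝ := fun i => Real.exp ((r i : ℝ) / (8 * Rm)) with hH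
  have hmom : ∑ X ∈ tables r c, ∏ i ∈ J, φ i (X i) ≤ (∏ i ∈ J, H i) * ((tables r c).card : ℝ) := by
    apply seq_momentG r c φ (fun _ _ => (Real.exp_pos _).le) H (fun _ => (Real.exp_pos _).le) J
    intro I₀ hI₀ i hi Y hY
    have hi' := Finset.mem_sdiff.1 hi
    have hiT : i ∉ T := by
      have := hi'.1
      rw [hJ] at this
      simpa using this
    have hdis : Disjoint T I₀ := by
      rw [Finset.disjoint_left]
      intro l hl hlI
      have := hI₀ hlI
      rw [hJ] at this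
      exact (Finset.mem_compl.1 this) hl
    apply exp_excess_fib r c T I₀ hdis hiT hi'.2 (hTtop' i hiT) Y hY Rm hRm (hR i)
    · intro j
      rw [hTcard]
      have := hC j
      linarith
    · rw [hTcard]
      exact ht0pos
  -- Markov
  set Bad := (tables r c).filter (fun X => (posCells X : ℝ) < 5 / 8 * N) with hBad
  have hprod : ∀ X : R → C → ℕ, ∏ i ∈ J, φ i (X i) =
      Real.exp ((∑ i ∈ J, (rowExcess (X i) : ℝ)) / Rm) := by
    intro X
    rw [Finset.sum_div, Real.exp_sum]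
  have hbad : ∀ X ∈ Bad, Real.exp (N / (4 * Rm)) ≤ ∏ i ∈ J, φ i (X i) := by
    intro X hX
    obtain ⟨hXt, hXb⟩ := Finset.mem_filter.1 hX
    have hXm := mem_tables.1 hXt
    rw [hprod]
    apply Real.exp_le_exp.2
    have h1 : ∑ i ∈ J, (r i : ℝ) = ∑ i ∈ J, (rowPos (X i) : ℝ) + ∑ i ∈ J, (rowExcess (X i) : ℝ) := by
      rw [← Finset.sum_add_distrib]
      apply Finset.sum_congr rfl
      intro i _
      have h2 := rowPos_add_rowExcess (X i)
      rw [hXm.1 i] at h2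
      exact_mod_cast h2.symm
    have h2 : ∑ i ∈ J, (rowPos (X i) : ℝ) ≤ (posCells X : ℝ) := by
      rw [posCells_eq]
      push_cast
      exact Finset.sum_le_univ_sum_of_nonneg fun i => Nat.cast_nonneg _
    have h3 : N / 4 ≤ ∑ i ∈ J, (rowExcess (X i) : ℝ) := by
      linarith
    rw [le_div_iff₀ hRm]
    have e : N / (4 * Rm) * Rm = N / 4 := by
      field_simp
    rw [e]
    exact h3
  have hPi : ∏ i ∈ J, H i ≤ Real.exp (N / (8 * Rm)) := by
    simp only [hH]
    rw [← Real.exp_sum]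
    apply Real.exp_le_exp.2
    rw [← Finset.sum_div]
    exact div_le_div_of_nonneg_right hJmassU (by positivity)
  have hB : (Bad.card : ℝ) * Real.exp (N / (4 * Rm)) ≤
      Real.exp (N / (8 * Rm)) * ((tables r c).card : ℝ) := by
    calc (Bad.card : ℝ) * Real.exp (N / (4 * Rm)) = ∑ _X ∈ Bad, Real.exp (N / (4 * Rm)) := by
          rw [Finset.sum_const, nsmul_eq_mul]
      _ ≤ ∑ X ∈ Bad, ∏ i ∈ J, φ i (X i) := Finset.sum_le_sum hbad
      _ ≤ ∑ X ∈ tables r c, ∏ i ∈ J, φ i (X i) := by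
          apply Finset.sum_le_sum_of_subset_of_nonneg (Finset.filter_subset _ _)
          intro X _ _
          exact Finset.prod_nonneg fun i _ => (Real.exp_pos _).le
      _ ≤ (∏ i ∈ J, H i) * ((tables r c).card : ℝ) := hmom
      _ ≤ _ := mul_le_mul_of_nonneg_right hPi (Nat.cast_nonneg _)
  have e1 : Real.exp (N / (4 * Rm)) = Real.exp (N / (8 * Rm)) * Real.exp (N / (8 * Rm)) := by
    rw [← Real.exp_add]
    congr 1
    field_simp
    ring
  rw [e1] at hB
  have hpos := Real.exp_pos (N / (8 * Rm))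
  have h5 : (Bad.card : ℝ) * Real.exp (N / (8 * Rm)) ≤ ((tables r c).card : ℝ) := by
    have h6 : Real.exp (N / (8 * Rm)) * ((Bad.card : ℝ) * Real.exp (N / (8 * Rm))) ≤
        Real.exp (N / (8 * Rm)) * ((tables r c).card : ℝ) := by
      calc _ = (Bad.card : ℝ) * (Real.exp (N / (8 * Rm)) * Real.exp (N / (8 * Rm))) := by ring
        _ ≤ _ := hB
    exact le_of_mul_le_mul_left h6 hpos
  refine le_trans ?_ h5
  apply mul_le_mul_of_nonneg_left _ (Nat.cast_nonneg _)
  apply Real.exp_le_exp.2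
  apply div_le_div_of_nonneg_left hN.le (by positivity)
  nlinarith

end Vale.Agent.Lib.P328.BlsyS
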