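import Mathlib
import Vale.Agent.Lib.P328.Defs
import Vale.Agent.Lib.P328.Blsy.CellMoment
import Vale.Agent.Lib.P328.BlsyS.Positive

/-!
# P328: the switching estimate and the cell moment for sparse margins
-/

namespace Vale.Agent.Lib.P328.BlsyS

open Finset Vale.Agent.Lib.P328.Blsy

variable {R C : Type} [Fintype R] [Fintype C] [DecidableEq R] [DecidableEq C]

/-- positive cells outside the row `i` and the column `j` -/
def posOut (i : R) (j : C) (X : R → C → ℕ) : ℕ :=
  (univ.filter fun p : R × C => p.1 ≠ i ∧ p.2 ≠ j ∧ 1 ≤ X p.1 p.2).card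

/-- the number of positive entries is at most the sum -/
theorem card_pos_le_sum {ι : Type} [Fintype ι] (u : ι → ℕ) :
    (univ.filter fun a => 1 ≤ u a).card ≤ ∑ a, u a := by
  rw [Finset.card_filter]
  apply Finset.sum_le_sum
  intro a _
  split_ifs with h
  · exact h
  · exact Nat.zero_le _

/-- the two cells removed -/
def E1 (i : R) (j : C) (t : R) (l : C) (a : R) (b : C) : ℕ :=
  (if a = i ∧ b = j then 1 else 0) + (if a = t ∧ b = l then 1 else 0)

/-- the two cells added -/
def E2 (i : R) (j : C) (t : R) (l : C) (a : R) (b : C) : ℕ :=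
  (if a = i ∧ b = l then 1 else 0) + (if a = t ∧ b = j then 1 else 0)

/-- the switch -/
def sw (i : R) (j : C) (t : R) (l : C) (X : R → C → ℕ) : R → C → ℕ :=
  fun a b => X a b - E1 i j t l a b + E2 i j t l a b

theorem sum_and_col (i a : R) (j : C) :
    ∑ b, (if a = i ∧ b = j then 1 else 0 : ℕ) = if a = i then 1 else 0 := by
  by_cases h : a = i <;> simp [h]

theorem sum_and_row (i : R) (j b : C) :
    ∑ a, (if a = i ∧ b = j then 1 else 0 : ℕ) = if b = j then 1 else 0 := by
  by_cases h : b = j <;> simp [h]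

theorem sum_E1_row (i : R) (j : C) (t : R) (l : C) (a : R) :
    ∑ b, E1 i j t l a b = ∑ b, E2 i j t l a b := by
  unfold E1 E2
  rw [Finset.sum_add_distrib, Finset.sum_add_distrib, sum_and_col, sum_and_col, sum_and_col,
    sum_and_col]

theorem sum_E1_col (i : R) (j : C) (t : R) (l : C) (b : C) :
    ∑ a, E1 i j t l a b = ∑ a, E2 i j t l a b := by
  unfold E1 E2
  rw [Finset.sum_add_distrib, Finset.sum_add_distrib, sum_and_row, sum_and_row, sum_and_row,
    sum_and_row]
  omega

theorem E1_le {i t : R} {j l : C} (hit : i ≠ t) {X : R → C → ℕ} (h1 : 1 ≤ X i j) (h2 : 1 ≤ X t l)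
    (a : R) (b : C) : E1 i j t l a b ≤ X a b := by
  unfold E1
  by_cases ha : a = i ∧ b = j
  · obtain ⟨rfl, rfl⟩ := ha
    simp only [and_self, if_true]
    rw [if_neg (fun h => hit h.1)]
    exact h1
  · rw [if_neg ha]
    by_cases hb : a = t ∧ b = l
    · obtain ⟨rfl, rfl⟩ := hb
      simp only [and_self, if_true]
      exact h2
    · rw [if_neg hb]
      exact Nat.zero_le _

theorem sw_mem {r : R → ℕ} {c : C → ℕ} {i t : R} {j l : C} (hit : i ≠ t)
    {X : R → C → ℕ} (hX : X ∈ tables r c) (h1 : 1 ≤ X i j) (h2 : 1 ≤ X t l) :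
    sw i j t l X ∈ tables r c := by
  have hXm := mem_tables.1 hX
  have hadd : ∀ a b, sw i j t l X a b + E1 i j t l a b = X a b + E2 i j t l a b := by
    intro a b
    have := E1_le hit h1 h2 a b
    unfold sw
    omega
  rw [mem_tables]
  constructor
  · intro a
    have h3 : ∑ b, sw i j t l X a b + ∑ b, E1 i j t l a b = ∑ b, X a b + ∑ b, E2 i j t l a b := by
      rw [← Finset.sum_add_distrib, ← Finset.sum_add_distrib]
      exact Finset.sum_congr rfl fun b _ => hadd a b
    rw [sum_E1_row, hXm.1 a] at h3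
    omega
  · intro b
    have h3 : ∑ a, sw i j t l X a b + ∑ a, E1 i j t l a b = ∑ a, X a b + ∑ a, E2 i j t l a b := by
      rw [← Finset.sum_add_distrib, ← Finset.sum_add_distrib]
      exact Finset.sum_congr rfl fun a _ => hadd a b
    rw [sum_E1_col, hXm.2 b] at h3
    omega

/-- the switching inequality for one fixed outside cell -/
theorem switch_pair (r : R → ℕ) (c : C → ℕ) {i t : R} {j l : C} (hit : i ≠ t) (hjl : j ≠ l)
    (f : ℕ → ℝ) (hf : ∀ k, 0 ≤ f k) :
    ∑ X ∈ (tables r c).filter (fun X => 1 ≤ X i j ∧ 1 ≤ X t l), f (X i j) ≤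
      ∑ X ∈ (tables r c).filter (fun X => 1 ≤ X i l ∧ 1 ≤ X t j), f (X i j + 1) := by
  classical
  set A := (tables r c).filter (fun X => 1 ≤ X i j ∧ 1 ≤ X t l) with hA
  set B := (tables r c).filter (fun X => 1 ≤ X i l ∧ 1 ≤ X t j) with hB
  have hval : ∀ X ∈ A, f (X i j) = f (sw i j t l X i j + 1) := by
    intro X hX
    have hX' := (Finset.mem_filter.1 hX).2
    congr 1
    unfold sw E1 E2
    simp only [and_self, if_true]
    rw [if_neg (fun h => hit h.1), if_neg (fun h => hjl h.2), if_neg (fun h => hit h.1)]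
    omega
  have hinj : Set.InjOn (sw i j t l) (A : Set (R → C → ℕ)) := by
    intro X hX Y hY hXY
    have hX' := (Finset.mem_filter.1 (Finset.mem_coe.1 hX)).2
    have hY' := (Finset.mem_filter.1 (Finset.mem_coe.1 hY)).2
    funext a b
    have h1 := E1_le hit hX'.1 hX'.2 a b
    have h2 := E1_le hit hY'.1 hY'.2 a b
    have h3 := congrFun (congrFun hXY a) b
    unfold sw at h3
    omega
  have hsub : A.image (sw i j t l) ⊆ B := by
    intro Z hZ
    obtain ⟨X, hX, rfl⟩ := Finset.mem_image.1 hZ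
    obtain ⟨hXt, hX1, hX2⟩ := Finset.mem_filter.1 hX
    rw [hB, Finset.mem_filter]
    refine ⟨sw_mem hit hXt hX1 hX2, ?_, ?_⟩
    · unfold sw E2
      simp only [and_self, if_true]
      omega
    · unfold sw E2
      simp only [and_self, if_true]
      omega
  calc ∑ X ∈ A, f (X i j) = ∑ X ∈ A, f (sw i j t l X i j + 1) := Finset.sum_congr rfl hval
    _ = ∑ Z ∈ A.image (sw i j t l), f (Z i j + 1) := by
        rw [Finset.sum_image hinj]
    _ ≤ ∑ Z ∈ B, f (Z i j + 1) :=
        Finset.sum_le_sum_of_subset_of_nonneg hsub fun _ _ _ => hf _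

/-- the switching double count -/
theorem switch_le (r : R → ℕ) (c : C → ℕ) (i : R) (j : C) (f : ℕ → ℝ) (hf : ∀ k, 0 ≤ f k) :
    ∑ X ∈ (tables r c).filter (fun X => 1 ≤ X i j), f (X i j) * (posOut i j X : ℝ) ≤
      ((r i : ℝ) * c j) * ∑ X ∈ tables r c, f (X i j + 1) := by
  classical
  set Off : Finset (R × C) := univ.filter fun p : R × C => p.1 ≠ i ∧ p.2 ≠ j with hOff
  have hout : ∀ X : R → C → ℕ, (posOut i j X : ℝ) =
      ∑ p ∈ Off, (if 1 ≤ X p.1 p.2 then 1 else 0 : ℝ) := by
    intro X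
    unfold posOut
    rw [Finset.sum_boole]
    congr 2
    ext p
    simp only [hOff, Finset.mem_filter, Finset.mem_univ, true_and]
    tauto
  calc ∑ X ∈ (tables r c).filter (fun X => 1 ≤ X i j), f (X i j) * (posOut i j X : ℝ)
      = ∑ p ∈ Off, ∑ X ∈ (tables r c).filter (fun X => 1 ≤ X i j ∧ 1 ≤ X p.1 p.2), f (X i j) := by
        simp_rw [hout, Finset.mul_sum]
        rw [Finset.sum_comm]
        apply Finset.sum_congr rfl
        intro p _
        rw [← Finset.filter_filter, Finset.sum_filter (s := (tables r c).filter _)]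
        apply Finset.sum_congr rfl
        intro X _
        split_ifs <;> simp
    _ ≤ ∑ p ∈ Off, ∑ X ∈ (tables r c).filter (fun X => 1 ≤ X i p.2 ∧ 1 ≤ X p.1 j), f (X i j + 1) := by
        apply Finset.sum_le_sum
        intro p hp
        have hp' := (Finset.mem_filter.1 hp).2
        exact switch_pair r c (Ne.symm hp'.1) (Ne.symm hp'.2) f hf
    _ = ∑ X ∈ tables r c, f (X i j + 1) *
          ∑ p ∈ Off, (if 1 ≤ X i p.2 ∧ 1 ≤ X p.1 j then 1 else 0 : ℝ) := by
        simp_rw [Finset.mul_sum]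
        rw [Finset.sum_comm]
        apply Finset.sum_congr rfl
        intro p _
        rw [Finset.sum_filter]
        apply Finset.sum_congr rfl
        intro X _
        split_ifs <;> simp
    _ ≤ ∑ X ∈ tables r c, f (X i j + 1) * ((r i : ℝ) * c j) := by
        apply Finset.sum_le_sum
        intro X hX
        apply mul_le_mul_of_nonneg_left _ (hf _)
        have hXm := mem_tables.1 hX
        rw [Finset.sum_boole]
        have hsub : Off.filter (fun p => 1 ≤ X i p.2 ∧ 1 ≤ X p.1 j) ⊆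
            (univ.filter fun t => 1 ≤ X t j) ×ˢ (univ.filter fun l => 1 ≤ X i l) := by
          intro p hp
          have hp' := (Finset.mem_filter.1 hp).2
          rw [Finset.mem_product]
          exact ⟨Finset.mem_filter.2 ⟨Finset.mem_univ _, hp'.2⟩,
            Finset.mem_filter.2 ⟨Finset.mem_univ _, hp'.1⟩⟩
        have h1 := Finset.card_le_card hsub
        rw [Finset.card_product] at h1
        have h2 := card_pos_le_sum (fun t => X t j)
        have h3 := card_pos_le_sum (fun l => X i l)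
        rw [hXm.2 j] at h2
        rw [hXm.1 i] at h3
        have h4 : (Off.filter (fun p => 1 ≤ X i p.2 ∧ 1 ≤ X p.1 j)).card ≤ r i * c j := by
          calc _ ≤ _ := h1
            _ ≤ c j * r i := Nat.mul_le_mul h2 h3
            _ = r i * c j := Nat.mul_comm _ _
        exact_mod_cast h4
    _ = _ := by
        rw [← Finset.sum_mul, mul_comm]

/-- the number of positive cells outside row `i` and column `j` -/
theorem posCells_le (r : R → ℕ) (c : C → ℕ) (i : R) (j : C) {X : R → C → ℕ}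
    (hX : X ∈ tables r c) : posCells X ≤ posOut i j X + r i + c j := by
  classical
  have hXm := mem_tables.1 hX
  unfold posCells posOut
  have hsub : (univ.filter fun p : R × C => 1 ≤ X p.1 p.2) ⊆
      (univ.filter fun p : R × C => p.1 ≠ i ∧ p.2 ≠ j ∧ 1 ≤ X p.1 p.2) ∪
        ((univ.filter fun l => 1 ≤ X i l).image (fun l => (i, l))) ∪
          ((univ.filter fun t => 1 ≤ X t j).image (fun t => (t, j))) := by
    rintro ⟨a, b⟩ hp
    have hp' := (Finset.mem_filter.1 hp).2
    simp only at hp'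
    simp only [Finset.mem_union, Finset.mem_filter, Finset.mem_univ, true_and, Finset.mem_image,
      Prod.mk.injEq]
    by_cases ha : a = i
    · subst ha
      exact Or.inl (Or.inr ⟨b, hp', rfl, rfl⟩)
    · by_cases hb : b = j
      · subst hb
        exact Or.inr ⟨a, hp', rfl, rfl⟩
      · exact Or.inl (Or.inl ⟨ha, hb, hp'⟩)
  have h1 := Finset.card_le_card hsub
  have h2 := Finset.card_union_le ((univ.filter fun p : R × C => p.1 ≠ i ∧ p.2 ≠ j ∧ 1 ≤ X p.1 p.2) ∪
        ((univ.filter fun l => 1 ≤ X i l).image (fun l => (i, l))))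
        ((univ.filter fun t => 1 ≤ X t j).image (fun t => (t, j)))
  have h3 := Finset.card_union_le (univ.filter fun p : R × C => p.1 ≠ i ∧ p.2 ≠ j ∧ 1 ≤ X p.1 p.2)
        ((univ.filter fun l => 1 ≤ X i l).image (fun l => (i, l)))
  have h4 := Finset.card_image_le (s := univ.filter fun l => 1 ≤ X i l) (f := fun l => (i, l))
  have h5 := Finset.card_image_le (s := univ.filter fun t => 1 ≤ X t j) (f := fun t => (t, j))
  have h6 := card_pos_le_sum (fun l => X i l)
  have h7 := card_pos_le_sum (fun t => X t j)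
  rw [hXm.1 i] at h6
  rw [hXm.2 j] at h7
  omega

theorem hh0_eq (x : ℕ) : hh 0 x = ((x : ℝ) + 1) * (100 / 99 : ℝ) ^ (x + 2) := by
  unfold hh
  norm_num

theorem hh0_nonneg (x : ℕ) : 0 ≤ hh 0 x := by
  rw [hh0_eq]
  positivity

theorem hh0_succ (x : ℕ) : hh 0 (x + 1) ≤ 2.03 * hh 0 x := by
  rw [hh0_eq, hh0_eq, pow_succ (100 / 99 : ℝ) (x + 2)]
  push_cast
  have hp : (0 : ℝ) < (100 / 99 : ℝ) ^ (x + 2) := by positivity
  have hx : (0 : ℝ) ≤ x := Nat.cast_nonneg _
  have h1 : ((x : ℝ) + 1 + 1) * (100 / 99) ≤ 2.03 * ((x : ℝ) + 1) := by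
    nlinarith
  calc ((x : ℝ) + 1 + 1) * ((100 / 99 : ℝ) ^ (x + 2) * (100 / 99))
      = (((x : ℝ) + 1 + 1) * (100 / 99)) * (100 / 99 : ℝ) ^ (x + 2) := by ring
    _ ≤ (2.03 * ((x : ℝ) + 1)) * (100 / 99 : ℝ) ^ (x + 2) :=
        mul_le_mul_of_nonneg_right h1 hp.le
    _ = _ := by ring

theorem hh0_le_exp (x : ℕ) :
    hh 0 x ≤ Real.exp ((x : ℝ) + ((x : ℝ) + 2) / 99) := by
  rw [hh0_eq, Real.exp_add]
  have h1 : (x : ℝ) + 1 ≤ Real.exp x := Real.add_one_le_exp _
  have h2 : (100 / 99 : ℝ) ≤ Real.exp (1 / 99) := by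
    have := Real.add_one_le_exp (1 / 99 : ℝ)
    linarith
  have h3 : (100 / 99 : ℝ) ^ (x + 2) ≤ Real.exp (((x : ℝ) + 2) / 99) := by
    have e : Real.exp (((x : ℝ) + 2) / 99) = Real.exp (1 / 99) ^ (x + 2) := by
      rw [← Real.exp_nat_mul]
      congr 1
      push_cast
      ring
    rw [e]
    exact pow_le_pow_left₀ (by norm_num) h2 _
  exact mul_le_mul h1 h3 (by positivity) (by positivity)

/-- the cell moment for sparse margins -/
theorem cell_momentS (r : R → ℕ) (c : C → ℕ) (hsum : ∑ i, r i = ∑ j, c j)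
    (N Rm Cm : ℝ) (hN : 0 < N) (hRm : 0 < Rm) (hCm : 0 ≤ Cm)
    (hNr : ∑ i, (r i : ℝ) = N)
    (hR : ∀ i, (r i : ℝ) ≤ Rm) (hC : ∀ j, (c j : ℝ) ≤ Cm)
    (hRC : 256 * (Rm * Cm) ≤ N) (hRN : 16 * Rm ≤ N) (hCN : 16 * Cm ≤ N) (i : R) (j : C) :
    ∑ X ∈ tables r c, hh 0 (X i j) ≤ 5 * ((tables r c).card : ℝ) := by
  classical
  set Om := tables r c with hOm
  set S := ∑ X ∈ Om, hh 0 (X i j) with hS
  have hS0 : 0 ≤ S := Finset.sum_nonneg fun X _ => hh0_nonneg _
  have hOm0 : (0 : ℝ) ≤ (Om.card : ℝ) := Nat.cast_nonneg _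
  set A0 := Om.filter (fun X => ¬ 1 ≤ X i j) with hA0
  set A1 := Om.filter (fun X => 1 ≤ X i j) with hA1
  set G1 := A1.filter (fun X => ¬ ((posCells X : ℝ) < 5 / 8 * N)) with hG1
  set B1 := A1.filter (fun X => (posCells X : ℝ) < 5 / 8 * N) with hB1
  have hsplit : S = ∑ X ∈ A0, hh 0 (X i j) + ∑ X ∈ G1, hh 0 (X i j) + ∑ X ∈ B1, hh 0 (X i j) := by
    have h1 : S = ∑ X ∈ A1, hh 0 (X i j) + ∑ X ∈ A0, hh 0 (X i j) :=
      (Finset.sum_filter_add_sum_filter_not Om _ _).symm
    have h2 : ∑ X ∈ A1, hh 0 (X i j) = ∑ X ∈ B1, hh 0 (X i j) + ∑ X ∈ G1, hh 0 (X i j) :=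
      (Finset.sum_filter_add_sum_filter_not A1 _ _).symm
    rw [h1, h2]
    ring
  -- the zero part
  have hzero : ∑ X ∈ A0, hh 0 (X i j) ≤ 1.03 * (Om.card : ℝ) := by
    have h1 : ∀ X ∈ A0, hh 0 (X i j) ≤ 1.03 := by
      intro X hX
      have h2 := (Finset.mem_filter.1 hX).2
      have h3 : X i j = 0 := by omega
      rw [h3, hh0_eq]
      norm_num
    calc _ ≤ ∑ _X ∈ A0, (1.03 : ℝ) := Finset.sum_le_sum h1
      _ = (A0.card : ℝ) * 1.03 := by rw [Finset.sum_const, nsmul_eq_mul]
      _ ≤ (Om.card : ℝ) * 1.03 := by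
          apply mul_le_mul_of_nonneg_right _ (by norm_num)
          exact_mod_cast Finset.card_le_card (Finset.filter_subset _ _)
      _ = _ := by ring
  -- the part with few positive cells
  have hbad : ∑ X ∈ B1, hh 0 (X i j) ≤ (Om.card : ℝ) := by
    have hmp := many_positive r c hsum N Rm Cm hN hRm hCm hNr hR hC hRC hRN
    have h1 : ∀ X ∈ B1, hh 0 (X i j) ≤ Real.exp (N / (16 * Rm)) := by
      intro X hX
      have hXt : X ∈ Om := (Finset.mem_filter.1 (Finset.mem_filter.1 hX).1).1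
      refine (hh0_le_exp _).trans (Real.exp_le_exp.2 ?_)
      have hx : (X i j : ℝ) ≤ Cm := by
        have : X i j ≤ c j := entry_le_colG hXt i j
        exact le_trans (by exact_mod_cast this) (hC j)
      have hy : 1 ≤ N / (16 * Rm) := by
        rw [le_div_iff₀ (by positivity)]
        linarith
      have hxy : 16 * Cm ≤ N / (16 * Rm) := by
        rw [le_div_iff₀ (by positivity)]
        nlinarith
      have hx0 : (0 : ℝ) ≤ X i j := Nat.cast_nonneg _
      linarith
    have hsub : B1 ⊆ Om.filter (fun X => (posCells X : ℝ) < 5 / 8 * N) := by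
      intro X hX
      obtain ⟨hX1, hX2⟩ := Finset.mem_filter.1 hX
      exact Finset.mem_filter.2 ⟨(Finset.mem_filter.1 hX1).1, hX2⟩
    calc _ ≤ ∑ _X ∈ B1, Real.exp (N / (16 * Rm)) := Finset.sum_le_sum h1
      _ = (B1.card : ℝ) * Real.exp (N / (16 * Rm)) := by rw [Finset.sum_const, nsmul_eq_mul]
      _ ≤ ((Om.filter (fun X => (posCells X : ℝ) < 5 / 8 * N)).card : ℝ) *
            Real.exp (N / (16 * Rm)) := by
          apply mul_le_mul_of_nonneg_right _ (Real.exp_pos _).le
          exact_mod_cast Finset.card_le_card hsub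
      _ ≤ _ := hmp
  -- the good part
  have hgood : ∑ X ∈ G1, hh 0 (X i j) ≤ S / 50 := by
    have hsw := switch_le r c i j (hh 0) hh0_nonneg
    have hpo : ∀ X ∈ G1, N / 2 ≤ (posOut i j X : ℝ) := by
      intro X hX
      obtain ⟨hX1, hX2⟩ := Finset.mem_filter.1 hX
      have hXt : X ∈ Om := (Finset.mem_filter.1 hX1).1
      have h1 := posCells_le r c i j hXt
      have h2 : (posCells X : ℝ) ≤ (posOut i j X : ℝ) + r i + c j := by exact_mod_cast h1
      have h3 := not_lt.1 hX2
      have h4 := hR i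
      have h5 := hC j
      linarith
    have h1 : (N / 2) * ∑ X ∈ G1, hh 0 (X i j) ≤
        ∑ X ∈ A1, hh 0 (X i j) * (posOut i j X : ℝ) := by
      calc (N / 2) * ∑ X ∈ G1, hh 0 (X i j) = ∑ X ∈ G1, hh 0 (X i j) * (N / 2) := by
            rw [Finset.mul_sum]
            apply Finset.sum_congr rfl
            intro X _
            ring
        _ ≤ ∑ X ∈ G1, hh 0 (X i j) * (posOut i j X : ℝ) := by
            apply Finset.sum_le_sum
            intro X hX
            exact mul_le_mul_of_nonneg_left (hpo X hX) (hh0_nonneg _)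
        _ ≤ _ := by
            apply Finset.sum_le_sum_of_subset_of_nonneg (Finset.filter_subset _ _)
            intro X _ _
            exact mul_nonneg (hh0_nonneg _) (Nat.cast_nonneg _)
    have h2 : ∑ X ∈ Om, hh 0 (X i j + 1) ≤ 2.03 * S := by
      rw [hS, Finset.mul_sum]
      exact Finset.sum_le_sum fun X _ => hh0_succ _
    have h3 : ((r i : ℝ) * c j) ≤ Rm * Cm :=
      mul_le_mul (hR i) (hC j) (Nat.cast_nonneg _) hRm.le
    have h4 : (N / 2) * ∑ X ∈ G1, hh 0 (X i j) ≤ (Rm * Cm) * (2.03 * S) := by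
      refine h1.trans (hsw.trans ?_)
      apply mul_le_mul h3 h2 _ (by positivity)
      exact Finset.sum_nonneg fun X _ => hh0_nonneg _
    have h5 : (Rm * Cm) * (2.03 * S) ≤ (N / 256) * (2.03 * S) := by
      apply mul_le_mul_of_nonneg_right _ (by positivity)
      linarith
    have h6 : (N / 2) * ∑ X ∈ G1, hh 0 (X i j) ≤ (N / 2) * (S / 50) := by
      refine (h4.trans h5).trans ?_
      have : (N / 256) * (2.03 * S) = (N / 2) * ((2.03 / 128) * S) := by ring
      rw [this]
      apply mul_le_mul_of_nonneg_left _ (by positivity)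
      nlinarith
    exact le_of_mul_le_mul_left h6 (by positivity)
  rw [hsplit] at *
  linarith

end Vale.Agent.Lib.P328.BlsyS
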