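import Mathlib
import Vale.Agent.Lib.P328.Defs
import Vale.Agent.Lib.P328.Blsy.Seq
import Vale.Agent.Lib.P328.BlsyS.SeqG
import Vale.Agent.Lib.P328.BlsyS.Switch

/-!
# P328: the discrete moment for sparse margins
-/

namespace Vale.Agent.Lib.P328.BlsyS

open Finset Vale.Agent.Lib.P328.Blsy

variable {R C : Type} [Fintype R] [Fintype C] [DecidableEq R] [DecidableEq C]

/-- a sum splits into the free rows and the fixed rows -/
theorem sum_free {M : Type} [AddCommMonoid M] (I₀ : Finset R) (f : R → M) :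
    ∑ i : {i // i ∉ I₀}, f i.1 + ∑ i ∈ I₀, f i = ∑ i, f i := by
  classical
  rw [← Finset.sum_subtype (s := univ.filter (fun i => i ∉ I₀)) (p := fun i => i ∉ I₀)
      (by simp) f]
  rw [← Finset.sum_filter_add_sum_filter_not (univ : Finset R) (fun i => i ∉ I₀) f]
  congr 1
  apply Finset.sum_congr
  · ext i; simp
  · intro _ _; rfl

/-- the cell moment on a fibre -/
theorem fib_cell_momentS (r : R → ℕ) (c : C → ℕ) (N Rm Cm : ℝ) (hN : 0 < N) (hRm : 0 < Rm)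
    (hCm : 0 ≤ Cm) (hNr : ∑ i, (r i : ℝ) = N)
    (hR : ∀ i, (r i : ℝ) ≤ Rm) (hC : ∀ j, (c j : ℝ) ≤ Cm)
    (hRC : 768 * (Rm * Cm) ≤ N) (hRN : 48 * Rm ≤ N) (hCN : 48 * Cm ≤ N)
    (I₀ : Finset R) (hI₀ : N ≤ 3 * ∑ i ∈ I₀ᶜ, (r i : ℝ))
    (Y : R → C → ℕ) (hY : Y ∈ tables r c) {i : R} (hi : i ∉ I₀) (j : C) :
    ∑ X ∈ fib r c I₀ Y, hh 0 (X i j) ≤ 5 * ((fib r c I₀ Y).card : ℝ) := by
  classical
  have hYm := mem_tables.1 hY
  have h1 := fib_sum_eqG r c I₀ Y hY (fun X => hh 0 (X i j))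
    (fun W => hh 0 (W ⟨i, hi⟩ j)) (fun _ => rfl)
  have h2 := fib_sum_eqG r c I₀ Y hY (fun _ => (1 : ℝ)) (fun _ => (1 : ℝ)) (fun _ => rfl)
  simp only [Finset.sum_const, nsmul_eq_mul, mul_one] at h2
  rw [h1, h2]
  -- the free mass
  set N' : ℝ := ∑ l : {i // i ∉ I₀}, (r l.1 : ℝ) with hN'
  have hN'eq : N' = ∑ i ∈ I₀ᶜ, (r i : ℝ) := by
    have h3 := sum_free I₀ (fun i => (r i : ℝ))
    have h4 : ∑ i ∈ I₀, (r i : ℝ) + ∑ i ∈ I₀ᶜ, (r i : ℝ) = ∑ i, (r i : ℝ) :=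
      Finset.sum_add_sum_compl _ _
    rw [hN']
    linarith
  have hN3 : N ≤ 3 * N' := by rw [hN'eq]; exact hI₀
  have hN'pos : 0 < N' := by linarith
  -- the margins of the free rows
  have hYle : ∀ j, ∑ i ∈ I₀, Y i j ≤ c j := by
    intro j
    rw [← hYm.2 j]
    exact Finset.sum_le_sum_of_subset_of_nonneg (Finset.subset_univ _)
      (fun _ _ _ => Nat.zero_le _)
  have hsum' : ∑ l : {i // i ∉ I₀}, r l.1 = ∑ k, cRest c I₀ Y k := by
    have h3 := sum_free I₀ r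
    have h4 : ∑ k, cRest c I₀ Y k + ∑ k, ∑ i ∈ I₀, Y i k = ∑ k, c k := by
      rw [← Finset.sum_add_distrib]
      apply Finset.sum_congr rfl
      intro k _
      unfold cRest
      exact Nat.sub_add_cancel (hYle k)
    have h5 : ∑ k, ∑ i ∈ I₀, Y i k = ∑ i ∈ I₀, r i := by
      rw [Finset.sum_comm]
      exact Finset.sum_congr rfl fun i _ => hYm.1 i
    have h6 : ∑ i, r i = ∑ k, c k := by
      rw [← Finset.sum_congr rfl fun i _ => hYm.1 i, Finset.sum_comm]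
      exact Finset.sum_congr rfl fun k _ => hYm.2 k
    omega
  have hC' : ∀ k, (cRest c I₀ Y k : ℝ) ≤ Cm := by
    intro k
    have : cRest c I₀ Y k ≤ c k := Nat.sub_le _ _
    exact le_trans (by exact_mod_cast this) (hC k)
  exact cell_momentS (fun l : {i // i ∉ I₀} => r l.1) (cRest c I₀ Y) hsum' N' Rm Cm hN'pos hRm hCm
    rfl (fun l => hR l.1) hC' (by linarith) (by linarith) (by linarith) ⟨i, hi⟩ j

/-- the discrete moment: the rows outside `J` carry at least a third of the mass -/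
theorem table_momentS (r : R → ℕ) (c : C → ℕ)
    (N Rm Cm : ℝ) (hN : 0 < N) (hRm : 0 < Rm) (hCm : 0 ≤ Cm)
    (hNr : ∑ i, (r i : ℝ) = N) (hNc : ∑ j, (c j : ℝ) = N)
    (hR : ∀ i, (r i : ℝ) ≤ Rm) (hC : ∀ j, (c j : ℝ) ≤ Cm)
    (hRC : 768 * (Rm * Cm) ≤ N) (hRN : 48 * Rm ≤ N) (hCN : 48 * Cm ≤ N)
    (J : Finset R) (hJ : N ≤ 3 * ∑ i ∈ Jᶜ, (r i : ℝ))
    (C₁ : ℝ) (hC₁ : 0 < C₁) (p : R → ℝ) (hp0 : ∀ i, 0 ≤ p i) (hp1 : ∀ i, p i ≤ 1) :
    ∑ X ∈ tables r c, ∏ i ∈ J,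
        (C₁ * ∑ j, ((c j : ℝ) / N) * hh 0 (X i j)) ^ p i ≤
      (∏ i ∈ J, (5 * C₁) ^ p i) * ((tables r c).card : ℝ) := by
  classical
  have hg0 : ∀ u : C → ℕ, 0 ≤ C₁ * ∑ j, ((c j : ℝ) / N) * hh 0 (u j) := by
    intro u
    apply mul_nonneg hC₁.le
    apply Finset.sum_nonneg
    intro j _
    exact mul_nonneg (by positivity) (hh0_nonneg _)
  set φ : R → (C → ℕ) → ℝ := fun i u =>
    (C₁ * ∑ j, ((c j : ℝ) / N) * hh 0 (u j)) ^ p i with hφ
  apply seq_momentG r c φ (fun i u => Real.rpow_nonneg (hg0 u) _)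
    (fun i => (5 * C₁) ^ p i) (fun i => by positivity) J
  intro I₀ hI₀ i hi Y hY
  have hi' := Finset.mem_sdiff.1 hi
  have hmass : N ≤ 3 * ∑ i ∈ I₀ᶜ, (r i : ℝ) := by
    refine hJ.trans ?_
    apply mul_le_mul_of_nonneg_left _ (by norm_num)
    apply Finset.sum_le_sum_of_subset_of_nonneg
    · exact Finset.compl_subset_compl.2 hI₀
    · intro _ _ _
      exact Nat.cast_nonneg _
  set A := fib r c I₀ Y with hA
  have hcell : ∀ j : C, ∑ X ∈ A, hh 0 (X i j) ≤ 5 * (A.card : ℝ) := fun j =>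
    fib_cell_momentS r c N Rm Cm hN hRm hCm hNr hR hC hRC hRN hCN I₀ hmass Y hY hi'.2 j
  have hweights : ∑ j, ((c j : ℝ) / N) = 1 := by
    rw [← Finset.sum_div, hNc]
    exact div_self hN.ne'
  have hmean : ∑ X ∈ A, (C₁ * ∑ j, ((c j : ℝ) / N) * hh 0 (X i j)) ≤ 5 * C₁ * (A.card : ℝ) := by
    have hswap : ∑ X ∈ A, (C₁ * ∑ j, ((c j : ℝ) / N) * hh 0 (X i j)) =
        C₁ * ∑ j, ((c j : ℝ) / N) * ∑ X ∈ A, hh 0 (X i j) := by
      rw [← Finset.mul_sum, Finset.sum_comm]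
      congr 1
      apply Finset.sum_congr rfl
      intro j _
      rw [Finset.mul_sum]
    rw [hswap]
    calc C₁ * ∑ j, ((c j : ℝ) / N) * ∑ X ∈ A, hh 0 (X i j)
        ≤ C₁ * ∑ j, ((c j : ℝ) / N) * (5 * (A.card : ℝ)) := by
          apply mul_le_mul_of_nonneg_left _ hC₁.le
          apply Finset.sum_le_sum
          intro j _
          exact mul_le_mul_of_nonneg_left (hcell j) (by positivity)
      _ = 5 * C₁ * (A.card : ℝ) := by
          rw [← Finset.sum_mul, hweights]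
          ring
  exact sum_rpow_le_of_sum_le A
    (fun X => C₁ * ∑ j, ((c j : ℝ) / N) * hh 0 (X i j))
    (fun X => hg0 (X i)) (p i) (5 * C₁) (hp0 i) (hp1 i) (by positivity) hmean

end Vale.Agent.Lib.P328.BlsyS
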