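import Mathlib
import Vale.Agent.Lib.P328.Blsy.Defs

/-!
# P328: the deterministic gauge lemma with general row and column sums
-/

namespace Vale.Agent.Lib.P328.BlsyS

open Finset

variable {R C : Type} [Fintype R] [Fintype C] [DecidableEq R] [DecidableEq C]

/-- a top set for `U` whose `w`-mass is between `M` and `M + D` -/
theorem exists_top_mass (U w : R → ℝ) (M D : ℝ) (hM : 0 < M)
    (hD : ∀ i, w i ≤ D) (htot : M ≤ ∑ i, w i) :
    ∃ T : Finset R, T.Nonempty ∧ (∀ i ∈ T, ∀ i', i' ∉ T → U i' ≤ U i) ∧
      M ≤ ∑ i ∈ T, w i ∧ ∑ i ∈ T, w i ≤ M + D := by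
  classical
  set F : Finset (Finset R) := (univ : Finset (Finset R)).filter
    (fun T => (∀ i ∈ T, ∀ i', i' ∉ T → U i' ≤ U i) ∧ M ≤ ∑ i ∈ T, w i) with hF
  have hFne : F.Nonempty := ⟨univ, by
    rw [hF, Finset.mem_filter]
    exact ⟨Finset.mem_univ _, fun i _ i' hi' => absurd (Finset.mem_univ i') hi', htot⟩⟩
  obtain ⟨T, hT, hmin⟩ := Finset.exists_min_image F (fun T => T.card) hFne
  have hT' := (Finset.mem_filter.1 hT).2
  have hTne : T.Nonempty := by
    rw [Finset.nonempty_iff_ne_empty]
    rintro rfl
    have := hT'.2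
    simp at this
    linarith
  obtain ⟨i0, hi0, hi0min⟩ := Finset.exists_min_image T U hTne
  refine ⟨T, hTne, hT'.1, hT'.2, ?_⟩
  have hsplit : w i0 + ∑ i ∈ T.erase i0, w i = ∑ i ∈ T, w i := Finset.add_sum_erase _ _ hi0
  by_contra hcon
  push Not at hcon
  have hmass : M ≤ ∑ i ∈ T.erase i0, w i := by
    have := hD i0
    linarith
  have hmem : T.erase i0 ∈ F := by
    rw [hF, Finset.mem_filter]
    refine ⟨Finset.mem_univ _, ?_, hmass⟩
    intro i hi i' hi'
    have hiT := Finset.mem_of_mem_erase hi
    by_cases h : i' = i0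
    · rw [h]
      exact hi0min i hiT
    · exact hT'.1 i hiT i' (fun h2 => hi' (Finset.mem_erase.2 ⟨h, h2⟩))
  have h1 := hmin _ hmem
  have h2 := Finset.card_erase_lt_of_mem hi0
  omega

/-- general gauge lemma, with weights `r_i`, `c_j` -/
theorem gaugeS (r : R → ℕ) (c : C → ℕ) (N : ℝ) (hN : 0 < N)
    (hr : ∑ i, (r i : ℝ) = N) (hc : ∑ j, (c j : ℝ) = N)
    (δ lam CE : ℝ) (hδ : 0 < δ) (hδ' : δ ≤ 1 / 14) (hlam : 0 < lam) (hCE : 0 < CE)
    (hrmax : ∀ i, (r i : ℝ) ≤ δ * N)
    (s : R → C → ℝ) (hs : ∀ i j, 0 < s i j)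
    (α : R → ℝ) (β : C → ℝ) (hα : ∀ i, 0 < α i) (hβ : ∀ j, 0 < β j)
    (hrow : ∀ i, ∑ j, α i * β j * s i j = r i) (hcol : ∀ j, ∑ i, α i * β j * s i j = c j)
    (E1 : ∀ j, ∑ i, (r i : ℝ) * s i j ≤ CE * N)
    (E2 : ∀ j, ∑ i, (if s i j < lam then (r i : ℝ) else 0) ≤ δ * N)
    (E3 : ∀ i, ∑ j, (if s i j < lam then (c j : ℝ) else 0) ≤ δ * N) :
    ∀ i j, α i * β j ≤ (4 * CE / (lam ^ 2 * δ)) * ((r i : ℝ) * c j / N) := by
  classical
  -- the margins are positive
  have hRne : Nonempty R := by
    by_contra h
    rw [not_nonempty_iff] at h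
    simp at hr
    linarith
  have hCne : Nonempty C := by
    by_contra h
    rw [not_nonempty_iff] at h
    simp at hc
    linarith
  have hypos : ∀ i j, 0 < α i * β j * s i j := fun i j =>
    mul_pos (mul_pos (hα i) (hβ j)) (hs i j)
  have hrpos : ∀ i, (0 : ℝ) < r i := by
    intro i
    rw [← hrow i]
    exact Finset.sum_pos (fun j _ => hypos i j) Finset.univ_nonempty
  have hcpos : ∀ j, (0 : ℝ) < c j := by
    intro j
    rw [← hcol j]
    exact Finset.sum_pos (fun i _ => hypos i j) Finset.univ_nonempty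
  -- the normalised variables
  set U : R → ℝ := fun i => α i / r i with hU
  set V : C → ℝ := fun j => β j / c j with hV
  have hUpos : ∀ i, 0 < U i := fun i => div_pos (hα i) (hrpos i)
  have hVpos : ∀ j, 0 < V j := fun j => div_pos (hβ j) (hcpos j)
  have hy : ∀ i j, α i * β j * s i j = (r i : ℝ) * c j * (U i * V j * s i j) := by
    intro i j
    have h1 := (hrpos i).ne'
    have h2 := (hcpos j).ne'
    simp only [hU, hV]
    field_simp
  have hab : ∀ i j, α i * β j = (r i : ℝ) * c j * (U i * V j) := by
    intro i j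
    have h1 := (hrpos i).ne'
    have h2 := (hcpos j).ne'
    simp only [hU, hV]
    field_simp
  -- the column identity
  have hcol' : ∀ j, V j * ∑ i, (r i : ℝ) * (U i * s i j) = 1 := by
    intro j
    have h1 := hcol j
    have h2 : ∑ i, α i * β j * s i j = (c j : ℝ) * (V j * ∑ i, (r i : ℝ) * (U i * s i j)) := by
      rw [Finset.mul_sum, Finset.mul_sum]
      apply Finset.sum_congr rfl
      intro i _
      rw [hy]
      ring
    rw [h2] at h1
    exact mul_left_cancel₀ (hcpos j).ne' (by rw [h1, mul_one])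
  have hrow' : ∀ i, U i * ∑ j, (c j : ℝ) * (V j * s i j) = 1 := by
    intro i
    have h1 := hrow i
    have h2 : ∑ j, α i * β j * s i j = (r i : ℝ) * (U i * ∑ j, (c j : ℝ) * (V j * s i j)) := by
      rw [Finset.mul_sum, Finset.mul_sum]
      apply Finset.sum_congr rfl
      intro j _
      rw [hy]
      ring
    rw [h2] at h1
    exact mul_left_cancel₀ (hrpos i).ne' (by rw [h1, mul_one])
  have hδN : 0 < δ * N := mul_pos hδ hN
  -- the top set
  obtain ⟨T, hTne, hTtop, hTlow, hThigh⟩ := exists_top_mass U (fun i => (r i : ℝ)) (2 * (δ * N))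
    (δ * N) (by linarith) hrmax (by
      rw [hr]
      nlinarith)
  obtain ⟨i0, hi0, hi0min⟩ := Finset.exists_min_image T U hTne
  set a : ℝ := U i0 with ha
  have hapos : 0 < a := hUpos i0
  have hin : ∀ i ∈ T, a ≤ U i := hi0min
  have hout : ∀ i, i ∉ T → U i ≤ a := fun i hi => hTtop i0 hi0 i hi
  -- Step 1
  have step1 : ∀ j, a * V j ≤ 1 / (lam * δ * N) := by
    intro j
    set G := T.filter (fun i => lam ≤ s i j) with hG
    have hmassG : δ * N ≤ ∑ i ∈ G, (r i : ℝ) := by
      have h1 : ∑ i ∈ T, (r i : ℝ) = ∑ i ∈ G, (r i : ℝ) +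
          ∑ i ∈ T.filter (fun i => ¬ lam ≤ s i j), (r i : ℝ) :=
        (Finset.sum_filter_add_sum_filter_not _ _ _).symm
      have h2 : ∑ i ∈ T.filter (fun i => ¬ lam ≤ s i j), (r i : ℝ) ≤
          ∑ i, (if s i j < lam then (r i : ℝ) else 0) := by
        calc _ = ∑ i ∈ T, (if s i j < lam then (r i : ℝ) else 0) := by
              rw [Finset.sum_filter]
              apply Finset.sum_congr rfl
              intro i _
              simp only [not_le]
          _ ≤ _ := by
              apply Finset.sum_le_univ_sum_of_nonneg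
              intro i
              split_ifs
              · exact (hrpos i).le
              · exact le_rfl
      have := E2 j
      linarith
    have hsum : a * lam * ∑ i ∈ G, (r i : ℝ) ≤ ∑ i, (r i : ℝ) * (U i * s i j) := by
      calc a * lam * ∑ i ∈ G, (r i : ℝ) = ∑ i ∈ G, (r i : ℝ) * (a * lam) := by
            rw [Finset.mul_sum]
            apply Finset.sum_congr rfl
            intro i _
            ring
        _ ≤ ∑ i ∈ G, (r i : ℝ) * (U i * s i j) := by
            apply Finset.sum_le_sum
            intro i hi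
            have hi' := Finset.mem_filter.1 hi
            apply mul_le_mul_of_nonneg_left _ (hrpos i).le
            exact mul_le_mul (hin i hi'.1) hi'.2 hlam.le (hUpos i).le
        _ ≤ _ := by
            apply Finset.sum_le_univ_sum_of_nonneg
            intro i
            have := hUpos i
            have := hs i j
            have := hrpos i
            positivity
    have hV1 := hcol' j
    have hVj := hVpos j
    have h3 : V j * (a * lam * (δ * N)) ≤ 1 := by
      rw [← hV1]
      apply mul_le_mul_of_nonneg_left _ hVj.le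
      refine le_trans ?_ hsum
      exact mul_le_mul_of_nonneg_left hmassG (by positivity)
    rw [le_div_iff₀ (by positivity)]
    calc a * V j * (lam * δ * N) = V j * (a * lam * (δ * N)) := by ring
      _ ≤ 1 := h3
  -- Step 2
  set L := (univ : Finset C).filter (fun j => a * V j < 1 / (2 * CE * N)) with hL
  have hstep2 : ∀ j ∈ L, (c j : ℝ) / 2 ≤ ∑ i ∈ T, α i * β j * s i j := by
    intro j hj
    have hj' := (Finset.mem_filter.1 hj).2
    have hsplit : ∑ i ∈ T, α i * β j * s i j + ∑ i ∈ Tᶜ, α i * β j * s i j = c j := by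
      rw [Finset.sum_add_sum_compl, hcol j]
    have hoff : ∑ i ∈ Tᶜ, α i * β j * s i j ≤ (c j : ℝ) / 2 := by
      calc ∑ i ∈ Tᶜ, α i * β j * s i j
          ≤ ∑ i ∈ Tᶜ, (c j : ℝ) * (a * V j) * ((r i : ℝ) * s i j) := by
            apply Finset.sum_le_sum
            intro i hi
            have hi' : i ∉ T := by simpa using hi
            rw [hy]
            have h1 := hout i hi'
            have h2 := hVpos j
            have h3 := hs i j
            have h4 := hrpos i
            have h5 := hcpos j
            have h6 : U i * V j * s i j ≤ a * V j * s i j :=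
              mul_le_mul_of_nonneg_right (mul_le_mul_of_nonneg_right h1 h2.le) h3.le
            have h7 := mul_le_mul_of_nonneg_left h6 (mul_pos h4 h5).le
            calc _ ≤ _ := h7
              _ = _ := by ring
        _ ≤ ∑ i, (c j : ℝ) * (a * V j) * ((r i : ℝ) * s i j) := by
            apply Finset.sum_le_univ_sum_of_nonneg
            intro i
            have h2 := hVpos j
            have h3 := hs i j
            have h4 := hrpos i
            have h5 := hcpos j
            positivity
        _ = (c j : ℝ) * (a * V j) * ∑ i, (r i : ℝ) * s i j := by rw [Finset.mul_sum]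
        _ ≤ (c j : ℝ) * (1 / (2 * CE * N)) * (CE * N) := by
            have h1 := E1 j
            have h2 : 0 ≤ ∑ i, (r i : ℝ) * s i j :=
              Finset.sum_nonneg fun i _ => mul_nonneg (hrpos i).le (hs i j).le
            apply mul_le_mul _ h1 h2 (by have := hcpos j; positivity)
            exact mul_le_mul_of_nonneg_left hj'.le (hcpos j).le
        _ = (c j : ℝ) / 2 := by
            field_simp
    linarith
  have hLsum : ∑ j ∈ L, (c j : ℝ) ≤ 6 * (δ * N) := by
    have h1 : ∑ j ∈ L, (c j : ℝ) / 2 ≤ ∑ j ∈ L, ∑ i ∈ T, α i * β j * s i j :=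
      Finset.sum_le_sum hstep2
    have h2 : ∑ j ∈ L, ∑ i ∈ T, α i * β j * s i j = ∑ i ∈ T, ∑ j ∈ L, α i * β j * s i j :=
      Finset.sum_comm
    have h3 : ∑ i ∈ T, ∑ j ∈ L, α i * β j * s i j ≤ ∑ i ∈ T, (r i : ℝ) := by
      apply Finset.sum_le_sum
      intro i _
      rw [← hrow i]
      apply Finset.sum_le_univ_sum_of_nonneg
      intro j
      exact (hypos i j).le
    have h4 : ∑ j ∈ L, (c j : ℝ) / 2 = (∑ j ∈ L, (c j : ℝ)) / 2 := by rw [Finset.sum_div]
    rw [h4, h2] at h1
    linarith
  -- Step 3
  have step3 : ∀ i, U i ≤ 4 * CE * a / lam := by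
    intro i
    set G := Lᶜ.filter (fun j => lam ≤ s i j) with hG
    have hmassG : N / 2 ≤ ∑ j ∈ G, (c j : ℝ) := by
      have h1 : ∑ j ∈ Lᶜ, (c j : ℝ) = ∑ j ∈ G, (c j : ℝ) +
          ∑ j ∈ Lᶜ.filter (fun j => ¬ lam ≤ s i j), (c j : ℝ) :=
        (Finset.sum_filter_add_sum_filter_not _ _ _).symm
      have h2 : ∑ j ∈ Lᶜ.filter (fun j => ¬ lam ≤ s i j), (c j : ℝ) ≤
          ∑ j, (if s i j < lam then (c j : ℝ) else 0) := by
        calc _ = ∑ j ∈ Lᶜ, (if s i j < lam then (c j : ℝ) else 0) := by
              rw [Finset.sum_filter]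
              apply Finset.sum_congr rfl
              intro j _
              simp only [not_le]
          _ ≤ _ := by
              apply Finset.sum_le_univ_sum_of_nonneg
              intro j
              split_ifs
              · exact (hcpos j).le
              · exact le_rfl
      have h3 := E3 i
      have h4 : ∑ j ∈ L, (c j : ℝ) + ∑ j ∈ Lᶜ, (c j : ℝ) = N := by
        rw [Finset.sum_add_sum_compl, hc]
      have h5 : 7 * (δ * N) ≤ N / 2 := by nlinarith
      linarith
    have hsum : (1 / (2 * CE * N * a)) * lam * ∑ j ∈ G, (c j : ℝ) ≤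
        ∑ j, (c j : ℝ) * (V j * s i j) := by
      calc (1 / (2 * CE * N * a)) * lam * ∑ j ∈ G, (c j : ℝ)
          = ∑ j ∈ G, (c j : ℝ) * ((1 / (2 * CE * N * a)) * lam) := by
            rw [Finset.mul_sum]
            apply Finset.sum_congr rfl
            intro j _
            ring
        _ ≤ ∑ j ∈ G, (c j : ℝ) * (V j * s i j) := by
            apply Finset.sum_le_sum
            intro j hj
            have hj' := Finset.mem_filter.1 hj
            apply mul_le_mul_of_nonneg_left _ (hcpos j).le
            have hjL : j ∉ L := by simpa using hj'.1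
            have h1 : ¬ (a * V j < 1 / (2 * CE * N)) := fun h =>
              hjL (Finset.mem_filter.2 ⟨Finset.mem_univ _, h⟩)
            have h2 : 1 / (2 * CE * N) ≤ a * V j := not_lt.1 h1
            have h3 : 1 / (2 * CE * N * a) ≤ V j := by
              rw [div_le_iff₀ (by positivity)]
              rw [div_le_iff₀ (by positivity)] at h2
              calc (1 : ℝ) ≤ a * V j * (2 * CE * N) := h2
                _ = V j * (2 * CE * N * a) := by ring
            exact mul_le_mul h3 hj'.2 hlam.le (hVpos j).le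
        _ ≤ _ := by
            apply Finset.sum_le_univ_sum_of_nonneg
            intro j
            have := hVpos j
            have := hs i j
            have := hcpos j
            positivity
    have h1 := hrow' i
    have hUi := hUpos i
    have h2 : U i * ((1 / (2 * CE * N * a)) * lam * (N / 2)) ≤ 1 := by
      refine le_trans ?_ h1.le
      apply mul_le_mul_of_nonneg_left _ hUi.le
      refine le_trans ?_ hsum
      exact mul_le_mul_of_nonneg_left hmassG (by positivity)
    have h3 : (1 / (2 * CE * N * a)) * lam * (N / 2) = lam / (4 * CE * a) := by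
      field_simp
      ring
    rw [h3] at h2
    rw [le_div_iff₀ hlam]
    rw [mul_div_assoc', div_le_iff₀ (by positivity)] at h2
    linarith
  -- Conclusion
  intro i j
  rw [hab]
  have h1 := step3 i
  have h2 := step1 j
  have hVj := hVpos j
  have hUi := hUpos i
  have h3 : U i * V j ≤ 4 * CE / (lam ^ 2 * δ) * (1 / N) := by
    calc U i * V j ≤ (4 * CE * a / lam) * V j := mul_le_mul_of_nonneg_right h1 hVj.le
      _ = (4 * CE / lam) * (a * V j) := by ring
      _ ≤ (4 * CE / lam) * (1 / (lam * δ * N)) :=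
          mul_le_mul_of_nonneg_left h2 (by positivity)
      _ = _ := by
          field_simp
  have hrc : 0 < (r i : ℝ) * c j := mul_pos (hrpos i) (hcpos j)
  calc (r i : ℝ) * c j * (U i * V j) ≤ (r i : ℝ) * c j * (4 * CE / (lam ^ 2 * δ) * (1 / N)) :=
        mul_le_mul_of_nonneg_left h3 hrc.le
    _ = _ := by ring

end Vale.Agent.Lib.P328.BlsyS
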