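import Mathlib
import Vale.Agent.Lib.P328.Defs
import Vale.Agent.Lib.P328.Blsy.Moment
import Vale.Agent.Lib.P328.BlsyS.Gauge
import Vale.Agent.Lib.P328.BlsyS.FibMoment

/-!
# P328: the moment bound under `nu` for sparse margins
-/

namespace Vale.Agent.Lib.P328.BlsyS

open Finset MeasureTheory ProbabilityTheory Vale.Agent.Lib.P328.Blsy
open scoped ENNReal

variable {R C : Type} [Fintype R] [Fintype C] [DecidableEq R] [DecidableEq C]

attribute [local instance] gam_prob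

/-- rows are independent: the product over `J` with row dependent exponents -/
theorem row_productG (c : C → ℕ) {N C₁ : ℝ} (hN : 0 ≤ N) (hC₁ : 0 ≤ C₁)
    (X : R → C → ℕ) (p : R → ℝ) (hp0 : ∀ i, 0 ≤ p i) (hp1 : ∀ i, p i ≤ 1) (J : Finset R) :
    Integrable (fun s : R → C → ℝ => ∏ i ∈ J, (rowF c 0 N C₁ (s i)) ^ p i) (muX X) ∧
    ∫ s, ∏ i ∈ J, (rowF c 0 N C₁ (s i)) ^ p i ∂(muX X) ≤
      ∏ i ∈ J, (C₁ * ∑ j, ((c j : ℝ) / N) * hh 0 (X i j)) ^ p i := by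
  classical
  have hm : (0 : ℝ) ≤ 0 := le_rfl
  set f : R → (C → ℝ) → ℝ := fun i u => if i ∈ J then (rowF c 0 N C₁ u) ^ p i else 1 with hf
  have hprod : ∀ s : R → C → ℝ, ∏ i ∈ J, (rowF c 0 N C₁ (s i)) ^ p i = ∏ i, f i (s i) := by
    intro s
    rw [prod_ite_aux J]
  have hfi : ∀ i, Integrable (f i) (rowM (X i)) := by
    intro i
    by_cases hi : i ∈ J
    · simp only [hf, hi, if_true]
      exact (rowF_pow c hm hN hC₁ (X i) (hp0 i) (hp1 i)).1
    · simp only [hf, hi, if_false]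
      exact integrable_const _
  constructor
  · simp_rw [hprod]
    exact Integrable.fintype_prod_dep (μ := fun i => rowM (X i)) hfi
  · simp_rw [hprod]
    have := integral_fintype_prod_eq_prod (𝕜 := ℝ) (μ := fun i => rowM (X i)) f
    unfold muX
    rw [this, prod_ite_aux J]
    refine Finset.prod_le_prod ?_ ?_
    · intro i _
      by_cases hi : i ∈ J
      · simp only [hf, hi, if_true]
        refine integral_nonneg_of_ae ?_
        exact (rowM_ae_pos (X i)).mono fun u hu =>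
          Real.rpow_nonneg (rowF_nonneg_of_pos c hm hN hC₁ hu) _
      · simp [hf, hi]
    · intro i _
      by_cases hi : i ∈ J
      · simp only [hf, hi, if_true]
        have h := (rowF_pow c hm hN hC₁ (X i) (hp0 i) (hp1 i)).2
        simpa only [div_zero] using h
      · simp [hf, hi]

/-- two complementary sets of rows, each with at least a third of the mass -/
theorem exists_mass_split (r : R → ℕ) (N Rm : ℝ) (hN : 0 < N) (hNr : ∑ i, (r i : ℝ) = N)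
    (hR : ∀ i, (r i : ℝ) ≤ Rm) (hRN : 48 * Rm ≤ N) :
    ∃ I : Finset R, N ≤ 3 * ∑ i ∈ I, (r i : ℝ) ∧ N ≤ 3 * ∑ i ∈ Iᶜ, (r i : ℝ) := by
  obtain ⟨T, -, -, h1, h2⟩ := exists_top_mass (fun _ : R => (0 : ℝ)) (fun i => (r i : ℝ)) (N / 3)
    Rm (by linarith) hR (by rw [hNr]; linarith)
  refine ⟨T, by linarith, ?_⟩
  have h3 : ∑ i ∈ T, (r i : ℝ) + ∑ i ∈ Tᶜ, (r i : ℝ) = N := by
    rw [Finset.sum_add_sum_compl, hNr]
  linarith

/-- the moment bound under `nu` for margins with no large row -/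
theorem nu_WS (r : R → ℕ) (c : C → ℕ)
    (N Rm Cm : ℝ) (hN : 0 < N) (hRm : 0 < Rm) (hCm : 0 ≤ Cm)
    (hNr : ∑ i, (r i : ℝ) = N) (hNc : ∑ j, (c j : ℝ) = N)
    (hR : ∀ i, (r i : ℝ) ≤ Rm) (hC : ∀ j, (c j : ℝ) ≤ Cm)
    (hRC : 768 * (Rm * Cm) ≤ N) (hRN : 48 * Rm ≤ N) (hCN : 48 * Cm ≤ N)
    (C₁ κ : ℝ) (hC₁ : 1 ≤ C₁) (hκ0 : 0 ≤ κ) (hκ : 2 * κ * Rm ≤ 1) :
    ∫⁻ s, ENNReal.ofReal (∏ i, (rowA c 0 N C₁ s i) ^ (κ * (r i : ℝ)))
        ∂(nu r c) ≤ ENNReal.ofReal ((5 * C₁) ^ (2 * κ * N)) := by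
  classical
  have hm0 : (0 : ℝ) ≤ 0 := le_rfl
  have hN0 : 0 ≤ N := hN.le
  have hC0 : 0 ≤ C₁ := by linarith
  set Om := tables r c with hOm
  obtain ⟨I₁, hI₁, hI₂⟩ := exists_mass_split r N Rm hN hNr hR hRN
  set I₂ := I₁ᶜ with hI₂def
  have hdis : Disjoint I₁ I₂ := disjoint_compl_right
  have hun : I₁ ∪ I₂ = univ := by simp [hI₂def]
  set q : R → ℝ := fun i => κ * (r i : ℝ) with hq
  set p : R → ℝ := fun i => 2 * q i with hp
  have hq0 : ∀ i, 0 ≤ q i := fun i => mul_nonneg hκ0 (Nat.cast_nonneg _)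
  have hp0 : ∀ i, 0 ≤ p i := fun i => by
    have := hq0 i
    simp only [hp]
    linarith
  have hp1 : ∀ i, p i ≤ 1 := fun i => by
    simp only [hp, hq]
    have h1 := hR i
    have h2 : κ * (r i : ℝ) ≤ κ * Rm := mul_le_mul_of_nonneg_left h1 hκ0
    linarith
  set T : ℝ := (5 * C₁) ^ (2 * κ * N) with hT
  have hbase : (1 : ℝ) ≤ 5 * C₁ := by linarith
  have hbase0 : (0 : ℝ) < 5 * C₁ := by linarith
  have hTpos : 0 ≤ T := Real.rpow_nonneg (by linarith) _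
  -- the bound for one half
  have hhalf : ∀ J : Finset R, N ≤ 3 * ∑ i ∈ Jᶜ, (r i : ℝ) →
      ∑ X ∈ Om, ∫ s, ∏ i ∈ J, (rowF c 0 N C₁ (s i)) ^ p i ∂(muX X) ≤ T * (Om.card : ℝ) := by
    intro J hJ
    have h1 : ∑ X ∈ Om, ∫ s, ∏ i ∈ J, (rowF c 0 N C₁ (s i)) ^ p i ∂(muX X) ≤
        ∑ X ∈ Om, ∏ i ∈ J, (C₁ * ∑ j, ((c j : ℝ) / N) * hh 0 (X i j)) ^ p i :=
      Finset.sum_le_sum fun X _ => (row_productG c hN0 hC0 X p hp0 hp1 J).2
    have h2 := table_momentS r c N Rm Cm hN hRm hCm hNr hNc hR hC hRC hRN hCN J hJ C₁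
      (by linarith) p hp0 hp1
    refine h1.trans (h2.trans ?_)
    refine mul_le_mul_of_nonneg_right ?_ (Nat.cast_nonneg _)
    rw [← Real.rpow_sum_of_pos hbase0]
    rw [hT]
    refine Real.rpow_le_rpow_of_exponent_le hbase ?_
    calc ∑ i ∈ J, p i ≤ ∑ i, p i :=
          Finset.sum_le_univ_sum_of_nonneg fun i => hp0 i
      _ = 2 * κ * N := by
          rw [← hNr, Finset.mul_sum]
          apply Finset.sum_congr rfl
          intro i _
          simp only [hp, hq]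
          ring
  -- pointwise AM-GM
  have hpt : ∀ s : R → C → ℝ, (∀ i j, 0 < s i j) →
      ∏ i, (rowA c 0 N C₁ s i) ^ q i ≤
        (∏ i ∈ I₁, (rowF c 0 N C₁ (s i)) ^ p i + ∏ i ∈ I₂, (rowF c 0 N C₁ (s i)) ^ p i) / 2 := by
    intro s hs
    have hF : ∀ i, 0 ≤ rowF c 0 N C₁ (s i) := fun i => rowF_nonneg_of_pos c hm0 hN0 hC0 (hs i)
    have hsq : ∀ i, (rowF c 0 N C₁ (s i)) ^ p i = ((rowF c 0 N C₁ (s i)) ^ q i) ^ 2 := by
      intro i
      rw [← Real.rpow_natCast, ← Real.rpow_mul (hF i)]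
      congr 1
      simp only [hp]
      push_cast
      ring
    simp_rw [hsq, Finset.prod_pow]
    have hsplit : ∏ i, (rowA c 0 N C₁ s i) ^ q i =
        (∏ i ∈ I₁, (rowF c 0 N C₁ (s i)) ^ q i) * ∏ i ∈ I₂, (rowF c 0 N C₁ (s i)) ^ q i := by
      rw [← Finset.prod_union hdis, hun]
      rfl
    rw [hsplit]
    nlinarith [sq_nonneg ((∏ i ∈ I₁, (rowF c 0 N C₁ (s i)) ^ q i) -
      ∏ i ∈ I₂, (rowF c 0 N C₁ (s i)) ^ q i)]
  -- the lintegral under each `muX`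
  have hX : ∀ X : R → C → ℕ, ∫⁻ s, ENNReal.ofReal (∏ i, (rowA c 0 N C₁ s i) ^ q i) ∂(muX X) ≤
      ENNReal.ofReal ((∫ s, ∏ i ∈ I₁, (rowF c 0 N C₁ (s i)) ^ p i ∂(muX X) +
        ∫ s, ∏ i ∈ I₂, (rowF c 0 N C₁ (s i)) ^ p i ∂(muX X)) / 2) := by
    intro X
    have hint₁ := (row_productG c hN0 hC0 X p hp0 hp1 I₁).1
    have hint₂ := (row_productG c hN0 hC0 X p hp0 hp1 I₂).1
    have hint : Integrable (fun s : R → C → ℝ =>
        (∏ i ∈ I₁, (rowF c 0 N C₁ (s i)) ^ p i + ∏ i ∈ I₂, (rowF c 0 N C₁ (s i)) ^ p i) / 2)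
        (muX X) := (hint₁.add hint₂).div_const 2
    have heq : (∫ s, ∏ i ∈ I₁, (rowF c 0 N C₁ (s i)) ^ p i ∂(muX X) +
        ∫ s, ∏ i ∈ I₂, (rowF c 0 N C₁ (s i)) ^ p i ∂(muX X)) / 2 =
        ∫ s, (∏ i ∈ I₁, (rowF c 0 N C₁ (s i)) ^ p i +
          ∏ i ∈ I₂, (rowF c 0 N C₁ (s i)) ^ p i) / 2 ∂(muX X) := by
      rw [integral_div, integral_add hint₁ hint₂]
    rw [heq, ofReal_integral_eq_lintegral_ofReal hint]
    · refine lintegral_mono_ae ?_
      filter_upwards [muX_ae_pos X] with s hs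
      exact ENNReal.ofReal_le_ofReal (hpt s hs)
    · filter_upwards [muX_ae_pos X] with s hs
      have hF : ∀ i, 0 ≤ (rowF c 0 N C₁ (s i)) ^ p i := fun i =>
        Real.rpow_nonneg (rowF_nonneg_of_pos c hm0 hN0 hC0 (hs i)) _
      have h₁ := Finset.prod_nonneg (s := I₁) fun i (_ : i ∈ I₁) => hF i
      have h₂ := Finset.prod_nonneg (s := I₂) fun i (_ : i ∈ I₂) => hF i
      show 0 ≤ _
      positivity
  -- summing
  unfold nu
  rw [lintegral_smul_measure, lintegral_finsetSum_measure]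
  by_cases hcard : Om.card = 0
  · have : Om = ∅ := Finset.card_eq_zero.1 hcard
    rw [← hOm, this]
    simp
  · have hcpos : (0 : ℝ) < (Om.card : ℝ) := by
      exact_mod_cast Nat.pos_of_ne_zero hcard
    have hsumX : ∑ X ∈ Om, ∫⁻ s, ENNReal.ofReal (∏ i, (rowA c 0 N C₁ s i) ^ q i) ∂(muX X) ≤
        ENNReal.ofReal (T * (Om.card : ℝ)) := by
      calc _ ≤ ∑ X ∈ Om, ENNReal.ofReal ((∫ s, ∏ i ∈ I₁, (rowF c 0 N C₁ (s i)) ^ p i ∂(muX X) +
              ∫ s, ∏ i ∈ I₂, (rowF c 0 N C₁ (s i)) ^ p i ∂(muX X)) / 2) :=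
            Finset.sum_le_sum fun X _ => hX X
        _ = ENNReal.ofReal (∑ X ∈ Om, (∫ s, ∏ i ∈ I₁, (rowF c 0 N C₁ (s i)) ^ p i ∂(muX X) +
              ∫ s, ∏ i ∈ I₂, (rowF c 0 N C₁ (s i)) ^ p i ∂(muX X)) / 2) := by
            rw [ENNReal.ofReal_sum_of_nonneg]
            intro X _
            have h₁ : ∀ J : Finset R, 0 ≤ ∫ s, ∏ i ∈ J, (rowF c 0 N C₁ (s i)) ^ p i ∂(muX X) := by
              intro J
              refine integral_nonneg_of_ae ?_
              filter_upwards [muX_ae_pos X] with s hs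
              exact Finset.prod_nonneg fun i _ =>
                Real.rpow_nonneg (rowF_nonneg_of_pos c hm0 hN0 hC0 (hs i)) _
            have := h₁ I₁
            have := h₁ I₂
            positivity
        _ ≤ ENNReal.ofReal (T * (Om.card : ℝ)) := by
            refine ENNReal.ofReal_le_ofReal ?_
            rw [← Finset.sum_div, Finset.sum_add_distrib]
            have h₁ := hhalf I₁ (by rw [hI₂def] at hI₂; exact hI₂)
            have h₂ := hhalf I₂ (by rw [hI₂def, compl_compl]; exact hI₁)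
            linarith
    calc ((Om.card : ℝ≥0∞))⁻¹ * ∑ X ∈ Om, ∫⁻ s, ENNReal.ofReal (∏ i, (rowA c 0 N C₁ s i) ^ q i) ∂(muX X)
        ≤ ((Om.card : ℝ≥0∞))⁻¹ * ENNReal.ofReal (T * (Om.card : ℝ)) := by gcongr
      _ = ENNReal.ofReal T := by
        rw [ENNReal.ofReal_mul hTpos, ENNReal.ofReal_natCast]
        rw [mul_comm, mul_assoc, ENNReal.mul_inv_cancel (by exact_mod_cast hcard) (ENNReal.natCast_ne_top _),
          mul_one]

end Vale.Agent.Lib.P328.BlsyS
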