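import Mathlib
import Vale.Agent.Lib.P328.Blsy.Main
import Vale.Agent.Lib.P328.BlsyS.Gauge
import Vale.Agent.Lib.P328.BlsyS.Events
import Vale.Agent.Lib.P328.BlsyS.Moment

/-!
# P328: Theorem S, assembly
-/

namespace Vale.Agent.Lib.P328.BlsyS

open Finset MeasureTheory ProbabilityTheory Vale.Agent.Lib.P328.Blsy
open scoped ENNReal

set_option linter.unusedSectionVars false

variable {R C : Type} [Fintype R] [Fintype C] [DecidableEq R] [DecidableEq C]

/-- The gauge constant. -/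
noncomputable def C1S : ℝ := 1572864

/-- The deterministic core: on the good event the bad event forces the row product to be large. -/
theorem coreS (r : R → ℕ) (c : C → ℕ) (hr1 : ∀ i, 1 ≤ r i) (hc1 : ∀ j, 1 ≤ c j)
    (hsum : ∑ i, r i = ∑ j, c j) (hN : 2 ≤ total r)
    (hRm : ∀ i, 16 * (r i : ℝ) ≤ (total r : ℝ))
    (s : R → C → ℝ) (hs : ∀ i j, 0 < s i j)
    (E1 : ∀ j, ∑ i, (r i : ℝ) * s i j ≤ 6 * (total r : ℝ))
    (E2 : ∀ j, ∑ i, (if s i j < 1 / 64 then (r i : ℝ) else 0) ≤ 1 / 16 * (total r : ℝ))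
    (E3 : ∀ i, ∑ j, (if s i j < 1 / 64 then (c j : ℝ) else 0) ≤ 1 / 16 * (total r : ℝ))
    (T : ℝ) (hT : 1 ≤ T) (hbad : T * Rlow r c * cap r c s < FF r c s) :
    T ≤ Real.exp ((100 * C1S) * LN (total r)) *
      ∏ i, (rowA c 0 (total r) C1S s i) ^ ((100 * C1S) * LN (total r) / (total r) * (r i : ℝ)) := by
  set N : ℝ := (total r : ℝ) with hNdef
  have hN2 : (2 : ℝ) ≤ N := by rw [hNdef]; exact_mod_cast hN
  have hN0 : 0 < N := by linarith
  have hNr : ∑ i, (r i : ℝ) = N := by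
    rw [hNdef, total, Nat.cast_sum]
  have hNc : ∑ j, (c j : ℝ) = N := by
    rw [hNdef, total, hsum, Nat.cast_sum]
  set C₁ : ℝ := C1S with hC₁def
  have hC₁ : C₁ = 1572864 := rfl
  have hC₁pos : 0 < C₁ := by rw [hC₁]; norm_num
  set θ : ℝ := 100 * C₁ with hθdef
  have hθ : 0 < θ := by positivity
  set L : ℝ := LN (total r) with hLdef
  have hrpos : ∀ i, (0 : ℝ) < r i := fun i => by exact_mod_cast hr1 i
  have hcpos : ∀ j, (0 : ℝ) < c j := fun j => by exact_mod_cast hc1 j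
  obtain ⟨α, β, hα, hβ, hrow, hcol⟩ := sinkhorn r c hr1 hc1 hsum s hs
  have hg := gaugeS r c N hN0 hNr hNc (1 / 16) (1 / 64) 6 (by norm_num) (by norm_num) (by norm_num)
    (by norm_num) (fun i => by have := hRm i; linarith) s hs α β hα hβ hrow hcol E1 E2 E3
  have hg' : ∀ i j, α i * β j ≤ C₁ * ((r i : ℝ) * c j / N) := by
    intro i j
    have := hg i j
    have e : (4 * 6 / ((1 / 64 : ℝ) ^ 2 * (1 / 16))) = C₁ := by
      rw [hC₁]; norm_num
    rwa [e] at this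
  obtain ⟨hcap, hF⟩ := FF_le_cap_mul r c hr1 hc1 hsum s hs α β hα hβ hrow hcol
  have hR := Rlow_pos r c hr1 hc1 (by omega)
  set b : R → C → ℝ := fun i j => α i * β j * s i j / ((r i : ℝ) * c j) with hbdef
  have hKK : T < KK r c b := by
    have h1 : T * (Rlow r c * cap r c s) < KK r c b * (Rlow r c * cap r c s) := by
      calc _ = T * Rlow r c * cap r c s := by ring
        _ < FF r c s := hbad
        _ ≤ _ := hF
        _ = _ := by ring
    exact lt_of_mul_lt_mul_right h1 (by positivity)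
  have hbpos : ∀ i j, 0 < b i j := by
    intro i j
    have := hα i
    have := hβ j
    have := hs i j
    have := hcpos j
    have := hrpos i
    positivity
  have hst : ∀ i, ∑ j, (c j : ℝ) * b i j = 1 := by
    intro i
    have : ∀ j, (c j : ℝ) * b i j = (1 / (r i : ℝ)) * (α i * β j * s i j) := by
      intro j
      have := hcpos j
      have := hrpos i
      simp only [hbdef]
      field_simp
    simp_rw [this]
    rw [← Finset.mul_sum, hrow i]
    have := hrpos i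
    field_simp
  have hbb := block_bound r c hsum hN b hbpos hst θ hθ
  have hL : 0 < L := (LN_pos_le _ hN).1
  set a : R → ℝ := fun i => ∑ j, (c j : ℝ) * b i j *
    Real.exp ((N * b i j - 1) / θ) with ha
  set Ar : R → ℝ := fun i => rowA c 0 N C₁ s i with hAr
  have hapos : ∀ i, 0 < a i := by
    intro i
    obtain ⟨j, hj⟩ := exists_pos_of_sum_pos c (by rw [← hsum]; exact (by omega : 0 < total r))
    refine Finset.sum_pos' (fun l _ => ?_) ⟨j, Finset.mem_univ _, ?_⟩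
    · have := hcpos l
      have := hbpos i l
      positivity
    · have := hcpos j
      have := hbpos i j
      positivity
  have hale : ∀ i, a i ≤ Ar i := by
    intro i
    simp only [ha, hAr, rowA]
    rw [Finset.mul_sum]
    refine Finset.sum_le_sum fun j _ => ?_
    have hcj := hcpos j
    have hri := hrpos i
    set e : ℝ := s i j with he
    have hepos : 0 < e := hs i j
    have hbN : N * b i j ≤ C₁ * e := by
      have h1 := hg' i j
      have h2 : N * b i j = (α i * β j) * (N * e / ((r i : ℝ) * c j)) := by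
        simp only [hbdef, he]
        field_simp
      rw [h2]
      have h3 : C₁ * e = (C₁ * ((r i : ℝ) * c j / N)) * (N * e / ((r i : ℝ) * c j)) := by
        field_simp
      rw [h3]
      exact mul_le_mul_of_nonneg_right h1 (by positivity)
    have hexp : Real.exp ((N * b i j - 1) / θ) ≤ Real.exp (e / 100) := by
      apply Real.exp_le_exp.mpr
      have h1 : (N * b i j - 1) / θ ≤ (C₁ * e) / θ :=
        div_le_div_of_nonneg_right (by linarith) hθ.le
      have h2 : (C₁ * e) / θ = e / 100 := by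
        simp only [hθdef]
        field_simp
      linarith
    have hcb : (c j : ℝ) * b i j ≤ C₁ * ((c j : ℝ) / N * e) := by
      have h1 : (c j : ℝ) * b i j = ((c j : ℝ) / N) * (N * b i j) := by
        field_simp
      rw [h1]
      have h2 := mul_le_mul_of_nonneg_left hbN (show 0 ≤ (c j : ℝ) / N by positivity)
      calc _ ≤ _ := h2
        _ = _ := by ring
    have hterm : C₁ * ((c j : ℝ) / N * cellE ((c j : ℝ) / 0) e) =
        (C₁ * ((c j : ℝ) / N * e)) * Real.exp (e / 100) := by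
      unfold cellE
      simp
      ring
    rw [hterm]
    exact mul_le_mul hcb hexp (Real.exp_pos _).le (by positivity)
  have hArpos : ∀ i, 0 < Ar i := fun i => lt_of_lt_of_le (hapos i) (hale i)
  have hT0 : 0 < T := by linarith
  have hlogK : 0 ≤ Real.log (KK r c b) := Real.log_nonneg (by linarith)
  set κ : ℝ := θ * L / N with hκ
  have hκpos : 0 < κ := by positivity
  have hsumlog : ∑ i, (r i : ℝ) * Real.log (a i) ≤ ∑ i, (r i : ℝ) * Real.log (Ar i) :=
    Finset.sum_le_sum fun i _ =>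
      mul_le_mul_of_nonneg_left (Real.log_le_log (hapos i) (hale i)) (hrpos i).le
  have hmain : Real.log (KK r c b) ≤ θ * L + κ * ∑ i, (r i : ℝ) * Real.log (Ar i) := by
    have h1 : (1 + κ) * Real.log (KK r c b) ≤ κ * (N + ∑ i, (r i : ℝ) * Real.log (a i)) := hbb
    have h2 : κ * (N + ∑ i, (r i : ℝ) * Real.log (a i)) ≤
        κ * (N + ∑ i, (r i : ℝ) * Real.log (Ar i)) :=
      mul_le_mul_of_nonneg_left (by linarith) hκpos.le
    have h3 : κ * N = θ * L := by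
      rw [hκ]; field_simp
    have h4 : Real.log (KK r c b) ≤ (1 + κ) * Real.log (KK r c b) := by nlinarith
    nlinarith
  have hprod : ∏ i, (Ar i) ^ (κ * (r i : ℝ)) = Real.exp (κ * ∑ i, (r i : ℝ) * Real.log (Ar i)) := by
    rw [Finset.mul_sum, Real.exp_sum]
    refine Finset.prod_congr rfl fun i _ => ?_
    rw [Real.rpow_def_of_pos (hArpos i)]
    ring_nf
  have hKpos : 0 < KK r c b := by linarith
  calc T ≤ KK r c b := hKK.le
    _ = Real.exp (Real.log (KK r c b)) := (Real.exp_log hKpos).symm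
    _ ≤ Real.exp (θ * L + κ * ∑ i, (r i : ℝ) * Real.log (Ar i)) := Real.exp_le_exp.mpr hmain
    _ = Real.exp (θ * L) * ∏ i, (Ar i) ^ (κ * (r i : ℝ)) := by
      rw [Real.exp_add, hprod]

/-- The constant of Theorem S. -/
noncomputable def KzS (A : ℝ) : ℝ :=
  128 * (A + 4) + 6 * (100 * C1S) + 4 * (100 * C1S) * Real.log (5 * C1S) + A + 2

theorem C1S_ge : (1 : ℝ) ≤ C1S := by
  unfold C1S; norm_num

theorem KzS_ge (A : ℝ) (hA : 1 ≤ A) :
    128 * (A + 4) ≤ KzS A ∧ 4 * (100 * C1S) ≤ KzS A ∧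
      4 * (100 * C1S) * Real.log (5 * C1S) + 2 * (100 * C1S) + A + 2 ≤ KzS A := by
  have h1 := C1S_ge
  unfold KzS
  have h2 : 0 ≤ Real.log (5 * C1S) := Real.log_nonneg (by linarith)
  have h3 : 0 ≤ 4 * (100 * C1S) * Real.log (5 * C1S) := by positivity
  refine ⟨?_, ?_, ?_⟩ <;> linarith

theorem measurable_rowProdS (c : C → ℕ) (m N C₁ : ℝ) (q : R → ℝ) :
    Measurable fun s : R → C → ℝ => ∏ i, (rowA c m N C₁ s i) ^ q i := by
  unfold rowA cellE
  fun_prop

theorem real4S (N A C₁ L K₀ : ℝ) (hN : 2 ≤ N) (hC₁ : 1 ≤ C₁) (hL : L ≤ 2 * Real.log N) (hL0 : 0 < L)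
    (hK : 4 * (100 * C₁) * Real.log (5 * C₁) + 2 * (100 * C₁) + A + 2 ≤ K₀) :
    (5 * C₁) ^ (2 * ((100 * C₁) * L / N) * N) ≤
      N ^ (-A) / 4 * (N ^ K₀ * Real.exp (-((100 * C₁) * L))) := by
  have hN0 : 0 < N := by linarith
  have hℓ0 : 0 < Real.log N := Real.log_pos (by linarith)
  set ℓ := Real.log N with hℓ
  set θ := 100 * C₁ with hθ
  have hθ1 : 1 ≤ θ := by linarith
  set H := 5 * C₁ with hH
  have hH1 : 1 ≤ H := by linarith
  have hlogH : 0 ≤ Real.log H := Real.log_nonneg hH1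
  have e : 2 * (θ * L / N) * N = 2 * (θ * L) := by field_simp
  rw [e]
  have hHexp : H ^ (2 * (θ * L)) ≤ Real.exp (4 * θ * ℓ * Real.log H) := by
    rw [Real.rpow_def_of_pos (by linarith)]
    apply Real.exp_le_exp.mpr
    have h4 : θ * L ≤ θ * (2 * ℓ) := mul_le_mul_of_nonneg_left hL (by linarith)
    have h5 : 2 * (θ * L) ≤ 4 * θ * ℓ := by linarith
    have := mul_le_mul_of_nonneg_left h5 hlogH
    linarith
  have htexp : N ^ K₀ * Real.exp (-(θ * L)) = Real.exp (K₀ * ℓ - θ * L) := by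
    rw [Real.rpow_def_of_pos hN0, ← Real.exp_add]
    congr 1
    rw [← hℓ]
    ring
  have hgoal : Real.exp (4 * θ * ℓ * Real.log H) ≤
      Real.exp (-((A + 2) * ℓ)) * (N ^ K₀ * Real.exp (-(θ * L))) := by
    rw [htexp, ← Real.exp_add]
    apply Real.exp_le_exp.mpr
    have h1 : θ * L ≤ 2 * θ * ℓ := by nlinarith
    have h2 : (4 * θ * Real.log H + 2 * θ + A + 2) * ℓ ≤ K₀ * ℓ :=
      mul_le_mul_of_nonneg_right hK hℓ0.le
    nlinarith
  calc H ^ (2 * (θ * L)) ≤ _ := hHexp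
    _ ≤ _ := hgoal
    _ ≤ _ := mul_le_mul_of_nonneg_right (eps_base N A hN) (by positivity)

theorem fail4S (r : R → ℕ) (c : C → ℕ) (hsum : ∑ i, r i = ∑ j, c j)
    (N Rm Cm : ℝ) (hN : 0 < N) (hRm : 0 < Rm) (hCm : 0 ≤ Cm)
    (hNr : ∑ i, (r i : ℝ) = N) (hNc : ∑ j, (c j : ℝ) = N)
    (hR : ∀ i, (r i : ℝ) ≤ Rm) (hC : ∀ j, (c j : ℝ) ≤ Cm)
    (hRC : 768 * (Rm * Cm) ≤ N) (hRN : 48 * Rm ≤ N) (hCN : 48 * Cm ≤ N)
    (C₁ κ t x : ℝ) (hC₁ : 1 ≤ C₁) (hκ0 : 0 ≤ κ) (hκ : 2 * κ * Rm ≤ 1) (ht : 0 < t)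
    (hx : (5 * C₁) ^ (2 * κ * N) ≤ x * t) :
    nu r c {s | t ≤ ∏ i, (rowA c 0 N C₁ s i) ^ (κ * (r i : ℝ))} ≤ ENNReal.ofReal x := by
  have hW : Measurable fun s : R → C → ℝ => ENNReal.ofReal
      (∏ i, (rowA c 0 N C₁ s i) ^ (κ * (r i : ℝ))) :=
    (measurable_rowProdS (R := R) c _ _ C₁ _).ennreal_ofReal
  have hsub4 : {s : R → C → ℝ | t ≤ ∏ i, (rowA c 0 N C₁ s i) ^ (κ * (r i : ℝ))} ⊆
      {s | ENNReal.ofReal t ≤ ENNReal.ofReal (∏ i, (rowA c 0 N C₁ s i) ^ (κ * (r i : ℝ)))} := by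
    intro s hs
    exact ENNReal.ofReal_le_ofReal hs
  have hmk := meas_ge_le_lintegral_div (μ := nu r c) hW.aemeasurable
    (ε := ENNReal.ofReal t) (by simpa using ht) ENNReal.ofReal_ne_top
  have hint := nu_WS r c N Rm Cm hN hRm hCm hNr hNc hR hC hRC hRN hCN C₁ κ hC₁ hκ0 hκ
  refine (measure_mono hsub4).trans (hmk.trans ?_)
  refine (ENNReal.div_le_div_right hint _).trans ?_
  rw [← ENNReal.ofReal_div_of_pos ht]
  refine ENNReal.ofReal_le_ofReal ?_
  rw [div_le_iff₀ ht]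
  exact hx

/-- The bad event is contained in the union of the failure events. -/
theorem bad_subsetS (r : R → ℕ) (c : C → ℕ) (hr1 : ∀ i, 1 ≤ r i) (hc1 : ∀ j, 1 ≤ c j)
    (hsum : ∑ i, r i = ∑ j, c j) (hN : 2 ≤ total r)
    (hRm : ∀ i, 16 * (r i : ℝ) ≤ (total r : ℝ)) (T : ℝ) (hT : 1 ≤ T) :
    {s | T * Rlow r c * cap r c s < FF r c s} ⊆
      {s | ¬ ∀ i j, 0 < s i j} ∪ {s | ¬ ∀ j, ∑ i, (r i : ℝ) * s i j ≤ 6 * (total r : ℝ)} ∪
      {s | ¬ ∀ j, ∑ i, (if s i j < 1 / 64 then (r i : ℝ) else 0) ≤ 1 / 16 * (total r : ℝ)} ∪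
      {s | ¬ ∀ i, ∑ j, (if s i j < 1 / 64 then (c j : ℝ) else 0) ≤ 1 / 16 * (total r : ℝ)} ∪
      {s | T * Real.exp (-((100 * C1S) * LN (total r))) ≤
        ∏ i, (rowA c 0 (total r) C1S s i) ^ ((100 * C1S) * LN (total r) / (total r) * (r i : ℝ))} := by
  intro s hs
  by_contra hcon
  simp only [Set.mem_union, not_or] at hcon
  obtain ⟨⟨⟨⟨h0, h1⟩, h2⟩, h3⟩, h4⟩ := hcon
  have h0' : ∀ i j, 0 < s i j := by
    by_contra hh
    exact h0 hh
  have h1' : ∀ j, ∑ i, (r i : ℝ) * s i j ≤ 6 * (total r : ℝ) := by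
    by_contra hh
    exact h1 hh
  have h2' : ∀ j, ∑ i, (if s i j < 1 / 64 then (r i : ℝ) else 0) ≤ 1 / 16 * (total r : ℝ) := by
    by_contra hh
    exact h2 hh
  have h3' : ∀ i, ∑ j, (if s i j < 1 / 64 then (c j : ℝ) else 0) ≤ 1 / 16 * (total r : ℝ) := by
    by_contra hh
    exact h3 hh
  have hc := coreS r c hr1 hc1 hsum hN hRm s h0' h1' h2' h3' T hT hs
  apply h4
  set X := ∏ i, (rowA c 0 (total r) C1S s i) ^ ((100 * C1S) * LN (total r) / (total r) * (r i : ℝ)) with hX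
  set y := (100 * C1S) * LN (total r) with hy
  change T * Real.exp (-y) ≤ X
  have hexp := Real.exp_pos y
  have h5 : T * Real.exp (-y) * Real.exp y = T := by
    rw [mul_assoc, ← Real.exp_add]
    simp
  have h6 : T * Real.exp (-y) * Real.exp y ≤ X * Real.exp y := by
    rw [h5]
    linarith
  exact le_of_mul_le_mul_right h6 hexp

theorem exists_max_real {ι : Type} [Fintype ι] (f : ι → ℕ) (hne : ∃ i, 1 ≤ f i) :
    ∃ i₀, 1 ≤ f i₀ ∧ ∀ i, f i ≤ f i₀ := by
  classical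
  obtain ⟨i, hi⟩ := hne
  obtain ⟨i₀, -, h⟩ := Finset.exists_max_image (univ : Finset ι) f ⟨i, Finset.mem_univ i⟩
  exact ⟨i₀, hi.trans (h i (Finset.mem_univ i)), fun l => h l (Finset.mem_univ l)⟩

theorem main_genericS (A : ℝ) (hA : 1 ≤ A) (r : R → ℕ) (c : C → ℕ)
    (hr1 : ∀ i, 1 ≤ r i) (hc1 : ∀ j, 1 ≤ c j)
    (hsum : ∑ i, r i = ∑ j, c j) (hN : 2 ≤ total r)
    (hdens : ∀ i j, 768 * ((r i : ℝ) * c j) ≤ (total r : ℝ))
    (hKr : ∀ i, KzS A * Real.log (total r) * r i ≤ (total r : ℝ))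
    (hKc : ∀ j, KzS A * Real.log (total r) * c j ≤ (total r : ℝ)) :
    nu r c {s | (total r : ℝ) ^ KzS A * Rlow r c * cap r c s < FF r c s} ≤
      ENNReal.ofReal ((total r : ℝ) ^ (-A)) := by
  obtain ⟨hK1, hK2, hK3⟩ := KzS_ge A hA
  have hC₁ := C1S_ge
  set N : ℝ := (total r : ℝ) with hNdef
  have hN2 : (2 : ℝ) ≤ N := by rw [hNdef]; exact_mod_cast hN
  have hN0 : 0 < N := by linarith
  have hNr : ∑ i, (r i : ℝ) = N := by
    rw [hNdef, total, Nat.cast_sum]
  have hNc : ∑ j, (c j : ℝ) = N := by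
    rw [hNdef, total, hsum, Nat.cast_sum]
  have hℓ2 : Real.log 2 ≤ Real.log N := Real.log_le_log (by norm_num) hN2
  have hlog2 : (0.69 : ℝ) < Real.log 2 := by
    have := Real.log_two_gt_d9
    linarith
  set ℓ := Real.log N with hℓ
  have hℓ0 : 0 < ℓ := by linarith
  have hKpos : 0 < KzS A := by linarith
  have hKℓ : 64 ≤ KzS A * ℓ := by nlinarith
  obtain ⟨i₀, hi₀, hi₀max⟩ := exists_max_real r
    (exists_pos_of_sum_pos r (by unfold total at hN; omega))
  obtain ⟨j₀, hj₀, hj₀max⟩ := exists_max_real c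
    (exists_pos_of_sum_pos c (by rw [← hsum]; unfold total at hN; omega))
  set Rm : ℝ := (r i₀ : ℝ) with hRmdef
  set Cm : ℝ := (c j₀ : ℝ) with hCmdef
  have hRm1 : (1 : ℝ) ≤ Rm := by rw [hRmdef]; exact_mod_cast hi₀
  have hCm1 : (1 : ℝ) ≤ Cm := by rw [hCmdef]; exact_mod_cast hj₀
  have hR : ∀ i, (r i : ℝ) ≤ Rm := fun i => by rw [hRmdef]; exact_mod_cast hi₀max i
  have hC : ∀ j, (c j : ℝ) ≤ Cm := fun j => by rw [hCmdef]; exact_mod_cast hj₀max j
  have hRC : 768 * (Rm * Cm) ≤ N := hdens i₀ j₀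
  have hKR : KzS A * ℓ * Rm ≤ N := hKr i₀
  have hKC : KzS A * ℓ * Cm ≤ N := hKc j₀
  have hRN : 48 * Rm ≤ N := by nlinarith
  have hCN : 48 * Cm ≤ N := by nlinarith
  have hne : (tables r c).Nonempty := tables_nonempty _ _ _ rfl hsum.symm
  have hnN : (Fintype.card C : ℝ) ≤ N := by
    have h1 : Fintype.card C ≤ ∑ j, c j := by
      calc Fintype.card C = ∑ _j : C, 1 := by simp
        _ ≤ _ := Finset.sum_le_sum fun j _ => hc1 j
    rw [← hsum] at h1
    rw [hNdef]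
    exact_mod_cast h1
  have hmN : (Fintype.card R : ℝ) ≤ N := by
    have h1 : Fintype.card R ≤ ∑ i, r i := by
      calc Fintype.card R = ∑ _i : R, 1 := by simp
        _ ≤ _ := Finset.sum_le_sum fun i _ => hr1 i
    rw [hNdef]
    exact_mod_cast h1
  have hLb := LN_pos_le _ hN
  have hT1 : 1 ≤ N ^ KzS A := Real.one_le_rpow (by linarith) hKpos.le
  set ε := N ^ (-A) with hε
  have hε0 : 0 < ε := by positivity
  have hε4 : 0 ≤ ε / 4 := by positivity
  -- lower bounds for the exponents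
  have hNR : KzS A * ℓ ≤ N / Rm := by
    rw [le_div_iff₀ (by linarith)]
    exact hKR
  have hNC : KzS A * ℓ ≤ N / Cm := by
    rw [le_div_iff₀ (by linarith)]
    exact hKC
  have hexp : ∀ V : ℝ, 32 * (A + 3) * ℓ ≤ V →
      ∀ n : ℝ, n ≤ N → 0 ≤ n → n * Real.exp (-(V / 32)) ≤ ε / 4 := by
    intro V hV n hn hn0
    refine N_mul_exp_le N A n _ hN2 hn (by positivity) ?_
    apply Real.exp_le_exp.mpr
    linarith
  have hV1 : 32 * (A + 3) * ℓ ≤ N / Rm :=
    le_trans (mul_le_mul_of_nonneg_right (by linarith) hℓ0.le) hNR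
  have hV2 : 32 * (A + 3) * ℓ ≤ N / Cm :=
    le_trans (mul_le_mul_of_nonneg_right (by linarith) hℓ0.le) hNC
  have hRC' : ∀ j, Rm * (c j : ℝ) ≤ N := by
    intro j
    have h1 : Rm * (c j : ℝ) ≤ Rm * Cm := mul_le_mul_of_nonneg_left (hC j) (by linarith)
    have h2 : 0 ≤ Rm * Cm := by positivity
    linarith
  have h1bd : nu r c {s | ¬ ∀ j, ∑ i, (r i : ℝ) * s i j ≤ 6 * N} ≤ ENNReal.ofReal (ε / 4) :=
    nu_le_of_muX r c hne _ _ fun X hX =>
      (E1S_fail r c N Rm hN0 (by linarith) hNr hR hRC' X hX).trans (ENNReal.ofReal_le_ofReal (by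
        have h := hexp (N / Rm) hV1 _ hnN (Nat.cast_nonneg _)
        refine le_trans (mul_le_mul_of_nonneg_left ?_ (Nat.cast_nonneg _)) h
        apply Real.exp_le_exp.mpr
        have : 0 ≤ N / Rm := by positivity
        linarith))
  have h2bd : nu r c {s | ¬ ∀ j, ∑ i, (if s i j < 1 / 64 then (r i : ℝ) else 0) ≤ 1 / 16 * N} ≤
      ENNReal.ofReal (ε / 4) :=
    nu_le_of_muX r c hne _ _ fun X _ =>
      (E2S_fail r N Rm hN0 (by linarith) hNr hR X).trans (ENNReal.ofReal_le_ofReal (by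
        have h := hexp (N / Rm) hV1 _ hnN (Nat.cast_nonneg _)
        refine le_trans (mul_le_mul_of_nonneg_left ?_ (Nat.cast_nonneg _)) h
        apply Real.exp_le_exp.mpr
        have : N / (32 * Rm) = N / Rm / 32 := by field_simp
        linarith))
  have h3bd : nu r c {s | ¬ ∀ i, ∑ j, (if s i j < 1 / 64 then (c j : ℝ) else 0) ≤ 1 / 16 * N} ≤
      ENNReal.ofReal (ε / 4) :=
    nu_le_of_muX r c hne _ _ fun X _ =>
      (E3S_fail c N Cm hN0 (by linarith) hNc hC X).trans (ENNReal.ofReal_le_ofReal (by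
        have h := hexp (N / Cm) hV2 _ hmN (Nat.cast_nonneg _)
        refine le_trans (mul_le_mul_of_nonneg_left ?_ (Nat.cast_nonneg _)) h
        apply Real.exp_le_exp.mpr
        have : N / (32 * Cm) = N / Cm / 32 := by field_simp
        linarith))
  have h0bd := nu_le_of_muX r c hne {s | ¬ ∀ i j, 0 < s i j} 0 (fun X _ => (E0_fail X).le)
  -- the level
  have hLe : LN (total r) ≤ 2 * ℓ := by
    have := hLb.2
    exact this
  have hκ0 : 0 ≤ (100 * C1S) * LN (total r) / N := by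
    have := hLb.1
    positivity
  have hκ : 2 * ((100 * C1S) * LN (total r) / N) * Rm ≤ 1 := by
    have e : 2 * ((100 * C1S) * LN (total r) / N) * Rm =
        (2 * ((100 * C1S) * LN (total r)) * Rm) / N := by ring
    rw [e, div_le_one hN0]
    have h3 : 4 * (100 * C1S) * ℓ * Rm ≤ KzS A * ℓ * Rm := by
      apply mul_le_mul_of_nonneg_right _ (by linarith)
      exact mul_le_mul_of_nonneg_right hK2 hℓ0.le
    have h4 := mul_le_mul_of_nonneg_left hLe (show (0 : ℝ) ≤ 2 * (100 * C1S) * Rm by positivity)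
    nlinarith
  have h4bd := fail4S r c hsum N Rm Cm hN0 (by linarith) (by linarith) hNr hNc hR hC hRC hRN hCN
    C1S _ (N ^ KzS A * Real.exp (-((100 * C1S) * LN (total r)))) (ε / 4) hC₁ hκ0 hκ
    (by positivity) (real4S N A C1S _ _ hN2 hC₁ hLe hLb.1 hK3)
  have hRm16 : ∀ i, 16 * (r i : ℝ) ≤ N := by
    intro i
    have := hR i
    linarith
  have hsub := bad_subsetS r c hr1 hc1 hsum hN hRm16 _ hT1
  refine (measure_mono hsub).trans ?_
  refine (measure_union_le _ _).trans ?_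
  have h12 : ∀ a b d e f g : ℝ≥0∞, a ≤ 0 → b ≤ g → d ≤ g → e ≤ g → f ≤ g →
      (a + b + d + e) + f ≤ g + g + g + g := by
    intro a b d e f g ha hb hd he hf
    have ha' : a = 0 := le_antisymm ha zero_le
    rw [ha', zero_add]
    gcongr
  have h13 : ∀ (S1 S2 S3 S4 : Set (R → C → ℝ)) (μ : Measure (R → C → ℝ)),
      μ (S1 ∪ S2 ∪ S3 ∪ S4) ≤ μ S1 + μ S2 + μ S3 + μ S4 := by
    intro S1 S2 S3 S4 μ
    refine (measure_union_le _ _).trans (add_le_add_left ?_ _)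
    refine (measure_union_le _ _).trans (add_le_add_left ?_ _)
    exact measure_union_le _ _
  refine (add_le_add_left (h13 _ _ _ _ _) _).trans ?_
  refine (h12 _ _ _ _ _ _ h0bd h1bd h2bd h3bd h4bd).trans (le_of_eq ?_)
  rw [← ENNReal.ofReal_add hε4 hε4, ← ENNReal.ofReal_add (by positivity) hε4,
    ← ENNReal.ofReal_add (by positivity) hε4]
  congr 1
  ring

/-- **Theorem S.** -/
theorem mainS (A : ℝ) (hA : 1 ≤ A) :
    ∃ K₀ : ℝ, 0 < K₀ ∧ ∀ (m n : ℕ) (r : Fin m → ℕ) (c : Fin n → ℕ),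
      (∀ i, 1 ≤ r i) → (∀ j, 1 ≤ c j) → ∑ i, r i = ∑ j, c j → 2 ≤ ∑ i, r i →
      (∀ i j, 768 * ((r i : ℝ) * c j) ≤ ((∑ i, r i : ℕ) : ℝ)) →
      (∀ i, K₀ * Real.log ((∑ i, r i : ℕ) : ℝ) * r i ≤ ((∑ i, r i : ℕ) : ℝ)) →
      (∀ j, K₀ * Real.log ((∑ i, r i : ℕ) : ℝ) * c j ≤ ((∑ i, r i : ℕ) : ℝ)) →
      nu r c {s | ((∑ i, r i : ℕ) : ℝ) ^ K₀ * Rlow r c * cap r c s < FF r c s} ≤
        ENNReal.ofReal (((∑ i, r i : ℕ) : ℝ) ^ (-A)) := by
  refine ⟨KzS A, ?_, ?_⟩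
  · obtain ⟨hK1, -, -⟩ := KzS_ge A hA
    linarith
  · intro m n r c hr1 hc1 hsum hN hdens hKr hKc
    exact main_genericS A hA r c hr1 hc1 hsum hN hdens hKr hKc

end Vale.Agent.Lib.P328.BlsyS
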